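import Mathlib

/-!
Smooth families with jointly continuous derivatives (Mathlib only): composition, the derivative,
products, post-composition, and series.
-/

open Set Filter Topology Metric
open scoped ContDiff

noncomputable section

namespace Vale.Agent.P207.N3.H646

universe uE uF uG

variable {P Q : Type*} [TopologicalSpace P] [TopologicalSpace Q]
variable {E : Type uE} [NormedAddCommGroup E] [NormedSpace ℝ E]
variable {F : Type uF} [NormedAddCommGroup F] [NormedSpace ℝ F]
variable {G : Type uG} [NormedAddCommGroup G] [NormedSpace ℝ G]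

/-- `f` is smooth in the second variable at the points of `S`, and all derivatives are jointly
continuous on `S`. -/
structure JC (S : Set (P × E)) (f : P → E → F) : Prop where
  smooth : ∀ p ∈ S, ContDiffAt ℝ ∞ (f p.1) p.2
  cont : ∀ k : ℕ, ContinuousOn (fun p : P × E => iteratedFDeriv ℝ k (f p.1) p.2) S

namespace JC

variable {S T : Set (P × E)} {f g : P → E → F}

theorem mono (h : JC S f) (hT : T ⊆ S) : JC T f :=
  ⟨fun p hp => h.smooth p (hT hp), fun k => (h.cont k).mono hT⟩

/-- change of the parameter -/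
theorem param {R : Set (Q × E)} (h : JC S f) {q : Q → P} (hq : Continuous q)
    (hm : ∀ p ∈ R, (q p.1, p.2) ∈ S) : JC R (fun p => f (q p)) :=
  ⟨fun p hp => h.smooth _ (hm p hp), fun k => (h.cont k).comp
    (f := fun p : Q × E => (q p.1, p.2)) (by fun_prop) (fun p hp => hm p hp)⟩

theorem continuousOn (h : JC S f) : ContinuousOn (fun p : P × E => f p.1 p.2) S := by
  have h0 := h.cont 0
  have h1 : ContinuousOn (fun p : P × E =>
      (continuousMultilinearCurryFin0 ℝ E F) (iteratedFDeriv ℝ 0 (f p.1) p.2)) S :=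
    (continuousMultilinearCurryFin0 ℝ E F).continuous.comp_continuousOn h0
  refine h1.congr fun p _ => ?_
  simp [continuousMultilinearCurryFin0_apply]

theorem congr (h : JC S f) (hfg : ∀ p ∈ S, g p.1 =ᶠ[𝓝 p.2] f p.1) : JC S g :=
  ⟨fun p hp => (h.smooth p hp).congr_of_eventuallyEq (hfg p hp),
    fun k => (h.cont k).congr fun p hp =>
      (Filter.EventuallyEq.iteratedFDeriv ℝ (hfg p hp) k).eq_of_nhds⟩

theorem const_param {s : Set E} (hs : IsOpen s) {f : E → F} (hf : ContDiffOn ℝ ∞ f s) :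
    JC ((univ : Set P) ×ˢ s) (fun _ => f) := by
  refine ⟨fun p hp => hf.contDiffAt (hs.mem_nhds hp.2), fun k => ?_⟩
  have h1 : ContinuousOn (iteratedFDeriv ℝ k f) s := by
    intro u hu
    have h2 : ContDiffAt ℝ ∞ f u := hf.contDiffAt (hs.mem_nhds hu)
    exact ((h2.differentiableAt_iteratedFDeriv
      (by exact_mod_cast ENat.natCast_lt_top k)).continuousAt).continuousWithinAt
  exact h1.comp continuous_snd.continuousOn fun p hp => hp.2

theorem comp {T : Set (Q × F)} {f : P → E → F} {g : Q → F → G} {q : P → Q}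
    (hf : JC S f) (hg : JC T g) (hq : Continuous q)
    (hm : ∀ p ∈ S, (q p.1, f p.1 p.2) ∈ T) : JC S (fun p u => g (q p) (f p u)) := by
  have hsm : ∀ p ∈ S, ContDiffAt ℝ ∞ (fun u => g (q p.1) (f p.1 u)) p.2 := fun p hp =>
    (hg.smooth _ (hm p hp)).comp p.2 (hf.smooth p hp)
  refine ⟨hsm, fun k => ?_⟩
  have key : ∀ p ∈ S, iteratedFDeriv ℝ k (fun u => g (q p.1) (f p.1 u)) p.2 =
      ∑ c : OrderedFinpartition k, c.compAlongOrderedFinpartitionL ℝ E F G
        (iteratedFDeriv ℝ c.length (g (q p.1)) (f p.1 p.2))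
        (fun m => iteratedFDeriv ℝ (c.partSize m) (f p.1) p.2) := by
    intro p hp
    have h1 := iteratedFDeriv_comp (x := p.2) (hg.smooth _ (hm p hp)) (hf.smooth p hp)
      (i := k) (by exact_mod_cast le_top)
    exact h1
  refine ContinuousOn.congr ?_ key
  refine continuousOn_finsetSum _ fun c _ => ?_
  have h1 : ContinuousOn (fun p : P × E => iteratedFDeriv ℝ c.length (g (q p.1)) (f p.1 p.2)) S :=
    (hg.cont c.length).comp (f := fun p : P × E => (q p.1, f p.1 p.2))
      ((hq.comp continuous_fst).continuousOn.prodMk hf.continuousOn) hm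
  have h2 : ContinuousOn (fun p : P × E => fun m : Fin c.length =>
      iteratedFDeriv ℝ (c.partSize m) (f p.1) p.2) S :=
    continuousOn_pi.mpr fun m => hf.cont (c.partSize m)
  have h3 : Continuous fun z : (F [×c.length]→L[ℝ] G) ×
      ((m : Fin c.length) → E [×c.partSize m]→L[ℝ] F) =>
      c.compAlongOrderedFinpartitionL ℝ E F G z.1 z.2 :=
    (c.compAlongOrderedFinpartitionL ℝ E F G).continuous_uncurry_of_multilinear
  exact h3.comp_continuousOn (h1.prodMk h2)

/-- post-composition with a fixed smooth function -/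
theorem post {f : P → E → F} {g : F → G} {s : Set F} (hs : IsOpen s) (hf : JC S f)
    (hg : ContDiffOn ℝ ∞ g s) (hm : ∀ p ∈ S, f p.1 p.2 ∈ s) :
    JC S (fun p u => g (f p u)) :=
  hf.comp (Q := P) (q := id) (T := univ ×ˢ s) (g := fun _ => g)
    (const_param hs hg) continuous_id (fun p hp => ⟨trivial, hm p hp⟩)

theorem fderiv {f : P → E → F} (hf : JC S f) : JC S (fun p u => fderiv ℝ (f p) u) := by
  refine ⟨fun p hp => (hf.smooth p hp).fderiv_right (m := ∞) (by simp), fun k => ?_⟩
  have h1 : ContinuousOn (fun p : P × E =>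
      (continuousMultilinearCurryRightEquiv' ℝ k E F)
        (iteratedFDeriv ℝ (k + 1) (f p.1) p.2)) S :=
    (continuousMultilinearCurryRightEquiv' ℝ k E F).continuous.comp_continuousOn
      (hf.cont (k + 1))
  refine h1.congr fun p _ => ?_
  show _ = (continuousMultilinearCurryRightEquiv' ℝ k E F) (iteratedFDeriv ℝ (k + 1) (f p.1) p.2)
  rw [iteratedFDeriv_succ_eq_comp_right, Function.comp_apply,
    LinearIsometryEquiv.apply_symm_apply]

theorem add {f g : P → E → F} (hf : JC S f) (hg : JC S g) : JC S (fun p u => f p u + g p u) := by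
  refine ⟨fun p hp => (hf.smooth p hp).add (hg.smooth p hp), fun k => ?_⟩
  refine ((hf.cont k).add (hg.cont k)).congr fun p hp => ?_
  exact iteratedFDeriv_add_apply
    ((hf.smooth p hp).of_le (by exact_mod_cast le_top))
    ((hg.smooth p hp).of_le (by exact_mod_cast le_top))

theorem neg {f : P → E → F} (hf : JC S f) : JC S (fun p u => - f p u) := by
  refine ⟨fun p hp => (hf.smooth p hp).neg, fun k => ?_⟩
  refine ((hf.cont k).neg).congr fun p hp => ?_
  exact iteratedFDeriv_neg_apply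

theorem sub {f g : P → E → F} (hf : JC S f) (hg : JC S g) :
    JC S (fun p u => f p u - g p u) := by
  simpa only [sub_eq_add_neg] using hf.add hg.neg

/-- functions of the parameter only -/
theorem of_param {c : P → F} (hc : ContinuousOn c (Prod.fst '' S)) :
    JC S (fun p (_ : E) => c p) := by
  refine ⟨fun p _ => contDiffAt_const, fun k => ?_⟩
  rcases Nat.eq_zero_or_pos k with rfl | hk
  · have h1 : ContinuousOn (fun p : P × E =>
        (continuousMultilinearCurryFin0 ℝ E F).symm (c p.1)) S :=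
      (continuousMultilinearCurryFin0 ℝ E F).symm.continuous.comp_continuousOn
        (hc.comp continuous_fst.continuousOn fun p hp => mem_image_of_mem _ hp)
    refine h1.congr fun p _ => ?_
    ext v
    simp [iteratedFDeriv_zero_apply]
  · refine continuousOn_const (c := 0) |>.congr fun p _ => ?_
    exact congrFun (iteratedFDeriv_const_of_ne (Nat.pos_iff_ne_zero.mp hk) (c p.1)) p.2

theorem bilin {G' : Type*} [NormedAddCommGroup G'] [NormedSpace ℝ G'] {f : P → E → F}
    {g : P → E → G} (hf : JC S f) (hg : JC S g) :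
    JC S (fun p u => (f p u, g p u)) := by
  refine ⟨fun p hp => (hf.smooth p hp).prodMk (hg.smooth p hp), fun k => ?_⟩
  have h1 : ∀ p ∈ S, iteratedFDeriv ℝ k (fun u => (f p.1 u, g p.1 u)) p.2 =
      (iteratedFDeriv ℝ k (f p.1) p.2).prod (iteratedFDeriv ℝ k (g p.1) p.2) := by
    intro p hp
    exact iteratedFDeriv_prodMk ((hf.smooth p hp).of_le (by exact_mod_cast le_top))
      ((hg.smooth p hp).of_le (by exact_mod_cast le_top)) le_rfl
  refine ContinuousOn.congr ?_ h1
  have h2 : Continuous fun z : (E [×k]→L[ℝ] F) × (E [×k]→L[ℝ] G) => z.1.prod z.2 :=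
    (ContinuousMultilinearMap.prodL ℝ (fun _ : Fin k => E) F G).continuous
  exact h2.comp_continuousOn ((hf.cont k).prodMk (hg.cont k))

end JC

/-! ### Series -/

section Series

variable [CompleteSpace F]

/-- the `k`-th derivative of a series on a preconnected open set -/
theorem iter_tsum {s : Set E} (hs : IsOpen s) (hp : IsPreconnected s) {f : ℕ → E → F}
    (hf : ∀ i, ContDiffOn ℝ ∞ (f i) s) {v : ℕ → ℕ → ℝ} (hv : ∀ k, Summable (v k))
    (hb : ∀ k i, ∀ u ∈ s, ‖iteratedFDeriv ℝ k (f i) u‖ ≤ v k i) (k : ℕ) :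
    ∀ u ∈ s, iteratedFDeriv ℝ k (fun u => ∑' i, f i u) u = ∑' i, iteratedFDeriv ℝ k (f i) u := by
  have hsm : ∀ i, ∀ u ∈ s, ContDiffAt ℝ ∞ (f i) u := fun i u hu =>
    (hf i).contDiffAt (hs.mem_nhds hu)
  induction k with
  | zero =>
    intro u hu
    have h0 : ∀ i, iteratedFDeriv ℝ 0 (f i) u =
        (continuousMultilinearCurryFin0 ℝ E F).symm (f i u) := fun i => by
      rw [iteratedFDeriv_zero_eq_comp]; rfl
    have h1 : iteratedFDeriv ℝ 0 (fun u => ∑' i, f i u) u =
        (continuousMultilinearCurryFin0 ℝ E F).symm (∑' i, f i u) := by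
      rw [iteratedFDeriv_zero_eq_comp]; rfl
    rw [h1]
    simp_rw [h0]
    exact (continuousMultilinearCurryFin0 ℝ E F).symm.toContinuousLinearEquiv.map_tsum
  | succ k ih =>
    intro u hu
    have hd : ∀ i, ∀ w ∈ s, HasFDerivAt (iteratedFDeriv ℝ k (f i))
        (fderiv ℝ (iteratedFDeriv ℝ k (f i)) w) w := fun i w hw =>
      ((hsm i w hw).differentiableAt_iteratedFDeriv
        (by exact_mod_cast ENat.natCast_lt_top k)).hasFDerivAt
    have hn : ∀ i, ∀ w ∈ s, ‖fderiv ℝ (iteratedFDeriv ℝ k (f i)) w‖ ≤ v (k + 1) i := by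
      intro i w hw
      rw [norm_fderiv_iteratedFDeriv]
      exact hb (k + 1) i w hw
    have hsum0 : Summable fun i => iteratedFDeriv ℝ k (f i) u :=
      Summable.of_norm_bounded (hv k) fun i => hb k i u hu
    have h1 : HasFDerivAt (fun w => ∑' i, iteratedFDeriv ℝ k (f i) w)
        (∑' i, fderiv ℝ (iteratedFDeriv ℝ k (f i)) u) u :=
      hasFDerivAt_tsum_of_isPreconnected (hv (k + 1)) hs hp hd hn hu hsum0 hu
    have h2 : iteratedFDeriv ℝ k (fun u => ∑' i, f i u) =ᶠ[𝓝 u]
        fun w => ∑' i, iteratedFDeriv ℝ k (f i) w :=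
      Filter.eventually_of_mem (hs.mem_nhds hu) fun w hw => ih w hw
    have h3 : fderiv ℝ (iteratedFDeriv ℝ k (fun u => ∑' i, f i u)) u =
        ∑' i, fderiv ℝ (iteratedFDeriv ℝ k (f i)) u := by
      rw [h2.fderiv_eq]; exact h1.fderiv
    have h4 : ∀ g : E → F, iteratedFDeriv ℝ (k + 1) g u =
        (continuousMultilinearCurryLeftEquiv ℝ (fun _ : Fin (k + 1) => E) F).symm
          (fderiv ℝ (iteratedFDeriv ℝ k g) u) := fun g => by
      rw [iteratedFDeriv_succ_eq_comp_left]; rfl
    rw [h4, h3]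
    simp_rw [h4]
    exact (continuousMultilinearCurryLeftEquiv ℝ
      (fun _ : Fin (k + 1) => E) F).symm.toContinuousLinearEquiv.map_tsum

theorem contDiffOn_tsum {s : Set E} (hs : IsOpen s) (hp : IsPreconnected s) {f : ℕ → E → F}
    (hf : ∀ i, ContDiffOn ℝ ∞ (f i) s) {v : ℕ → ℕ → ℝ} (hv : ∀ k, Summable (v k))
    (hb : ∀ k i, ∀ u ∈ s, ‖iteratedFDeriv ℝ k (f i) u‖ ≤ v k i) :
    ContDiffOn ℝ ∞ (fun u => ∑' i, f i u) s := by
  have hsm : ∀ i, ∀ u ∈ s, ContDiffAt ℝ ∞ (f i) u := fun i u hu =>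
    (hf i).contDiffAt (hs.mem_nhds hu)
  refine contDiffOn_of_differentiableOn fun k _ => ?_
  intro u hu
  have hd : ∀ i, ∀ w ∈ s, HasFDerivAt (iteratedFDeriv ℝ k (f i))
      (fderiv ℝ (iteratedFDeriv ℝ k (f i)) w) w := fun i w hw =>
    ((hsm i w hw).differentiableAt_iteratedFDeriv
      (by exact_mod_cast ENat.natCast_lt_top k)).hasFDerivAt
  have hn : ∀ i, ∀ w ∈ s, ‖fderiv ℝ (iteratedFDeriv ℝ k (f i)) w‖ ≤ v (k + 1) i := by
    intro i w hw
    rw [norm_fderiv_iteratedFDeriv]
    exact hb (k + 1) i w hw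
  have hsum0 : Summable fun i => iteratedFDeriv ℝ k (f i) u :=
    Summable.of_norm_bounded (hv k) fun i => hb k i u hu
  have h1 : HasFDerivAt (fun w => ∑' i, iteratedFDeriv ℝ k (f i) w)
      (∑' i, fderiv ℝ (iteratedFDeriv ℝ k (f i)) u) u :=
    hasFDerivAt_tsum_of_isPreconnected (hv (k + 1)) hs hp hd hn hu hsum0 hu
  have h2 : ∀ w ∈ s, iteratedFDerivWithin ℝ k (fun u => ∑' i, f i u) s w =
      ∑' i, iteratedFDeriv ℝ k (f i) w := fun w hw => by
    rw [iteratedFDerivWithin_of_isOpen k hs hw]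
    exact iter_tsum hs hp hf hv hb k w hw
  exact (h1.differentiableAt.differentiableWithinAt).congr h2 (h2 u hu)

/-- series of smooth families -/
theorem JC.tsum {P : Type*} [TopologicalSpace P] {s : Set E} (hs : IsOpen s)
    (hp : IsPreconnected s) {f : ℕ → P → E → F}
    (hf : ∀ i, JC ((univ : Set P) ×ˢ s) (f i)) {v : ℕ → ℕ → ℝ} (hv : ∀ k, Summable (v k))
    (hb : ∀ k i p, ∀ u ∈ s, ‖iteratedFDeriv ℝ k (f i p) u‖ ≤ v k i) :
    JC ((univ : Set P) ×ˢ s) (fun p u => ∑' i, f i p u) := by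
  have hsm : ∀ i p, ContDiffOn ℝ ∞ (f i p) s := fun i p u hu =>
    ((hf i).smooth (p, u) ⟨trivial, hu⟩).contDiffWithinAt
  refine ⟨fun p hpS => (contDiffOn_tsum hs hp (fun i => hsm i p.1) hv
    (fun k i u hu => hb k i p.1 u hu)).contDiffAt (hs.mem_nhds hpS.2), fun k => ?_⟩
  have h1 : ∀ p ∈ (univ : Set P) ×ˢ s, iteratedFDeriv ℝ k (fun u => ∑' i, f i p.1 u) p.2 =
      ∑' i, iteratedFDeriv ℝ k (f i p.1) p.2 := fun p hpS =>
    iter_tsum hs hp (fun i => hsm i p.1) hv (fun k i u hu => hb k i p.1 u hu) k p.2 hpS.2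
  refine ContinuousOn.congr ?_ h1
  exact continuousOn_tsum (fun i => (hf i).cont k) (hv k) fun i p hpS => hb k i p.1 p.2 hpS.2

end Series

end Vale.Agent.P207.N3.H646
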