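import Vale.Agent.P207.N3.H76.Ext

/-!
Line N3 of P207, row R19: differentiation of a finite measure on the unit sphere of space.
-/

open MeasureTheory Measure Set Filter Topology Metric
open scoped ENNReal Pointwise

noncomputable section

namespace Vale.Agent.P207.N3.H646

open H76 (pk tl e0)

set_option linter.unusedSectionVars false

theorem volume_disc {ρ : ℝ} (hρ : 0 ≤ ρ) :
    volume {y : Fin 2 → ℝ | y 0 ^ 2 + y 1 ^ 2 ≤ ρ ^ 2} = ENNReal.ofReal (Real.pi * ρ ^ 2) := by
  have h := (PiLp.volume_preserving_toLp (Fin 2)).measure_preimage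
    (s := closedBall (0 : E2) ρ) measurableSet_closedBall.nullMeasurableSet
  have e : (WithLp.toLp 2 : (Fin 2 → ℝ) → E2) ⁻¹' closedBall (0 : E2) ρ =
      {y : Fin 2 → ℝ | y 0 ^ 2 + y 1 ^ 2 ≤ ρ ^ 2} := by
    ext y
    rw [mem_preimage, mem_closedBall_zero_iff, mem_ofPred_eq, EuclideanSpace.norm_eq,
      Real.sqrt_le_left hρ, Fin.sum_univ_two]
    simp only [Real.norm_eq_abs, sq_abs]
  rw [e, EuclideanSpace.volume_closedBall_fin_two] at h
  rw [h, ← ENNReal.ofReal_pow hρ, ← ENNReal.ofReal_mul (by positivity), mul_comm]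

/-- the standard cone -/
def cone (κ : ℝ) : Set E3 := {z | 0 < z 0 ∧ z 0 ≤ 1 ∧ z 1 ^ 2 + z 2 ^ 2 ≤ (κ * z 0) ^ 2}

theorem measurableSet_cone (κ : ℝ) : MeasurableSet (cone κ) := by
  have h : ∀ i : Fin 3, Measurable fun z : E3 => z i := fun i => by fun_prop
  refine MeasurableSet.inter ?_ (MeasurableSet.inter ?_ ?_)
  · exact measurableSet_lt measurable_const (h 0)
  · exact measurableSet_le (h 0) measurable_const
  · exact measurableSet_le (((h 1).pow_const 2).add ((h 2).pow_const 2))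
      (((h 0).const_mul κ).pow_const 2)

theorem volume_cone {κ : ℝ} (hκ : 0 ≤ κ) :
    volume (cone κ) = ENNReal.ofReal (Real.pi * κ ^ 2 / 3) := by
  set T : Set (ℝ × (Fin 2 → ℝ)) := {p | p.1 ∈ Ioc (0 : ℝ) 1 ∧ p.2 0 ^ 2 + p.2 1 ^ 2 ≤ (κ * p.1) ^ 2}
    with hT
  have hTm : MeasurableSet T := by
    refine MeasurableSet.inter (measurable_fst measurableSet_Ioc) ?_
    have h : ∀ i : Fin 2, Measurable fun p : ℝ × (Fin 2 → ℝ) => p.2 i := fun i =>
      (measurable_pi_apply i).comp measurable_snd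
    exact measurableSet_le (((h 0).pow_const 2).add ((h 1).pow_const 2))
      ((measurable_fst.const_mul κ).pow_const 2)
  have h1 := (PiLp.volume_preserving_toLp (Fin 3)).measure_preimage
    (measurableSet_cone κ).nullMeasurableSet
  have h2 := (volume_preserving_piFinSuccAbove (fun _ : Fin 3 => ℝ) 0).measure_preimage
    hTm.nullMeasurableSet
  have e : (WithLp.toLp 2 : (Fin 3 → ℝ) → E3) ⁻¹' cone κ =
      (MeasurableEquiv.piFinSuccAbove (fun _ : Fin 3 => ℝ) 0) ⁻¹' T := by
    ext y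
    simp only [cone, hT, mem_preimage, mem_ofPred_eq, mem_Ioc, MeasurableEquiv.piFinSuccAbove_apply,
      and_assoc]
    exact Iff.rfl
  rw [← h1, e, h2]
  rw [show (volume : Measure (ℝ × (Fin 2 → ℝ))) = (volume : Measure ℝ).prod volume from rfl,
    Measure.prod_apply hTm]
  have h3 : ∀ a : ℝ, volume (Prod.mk a ⁻¹' T) =
      (Ioc (0 : ℝ) 1).indicator (fun a => ENNReal.ofReal (Real.pi * (κ * a) ^ 2)) a := by
    intro a
    by_cases ha : a ∈ Ioc (0 : ℝ) 1
    · rw [indicator_of_mem ha, ← volume_disc (mul_nonneg hκ ha.1.le)]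
      congr 1
      ext y
      simp only [hT, mem_preimage, mem_ofPred_eq, ha, true_and]
    · rw [indicator_of_notMem ha]
      have : Prod.mk a ⁻¹' T = ∅ := by
        ext y
        simp only [hT, mem_preimage, mem_ofPred_eq, ha, false_and, mem_empty_iff_false]
      rw [this, measure_empty]
  simp_rw [h3]
  rw [lintegral_indicator measurableSet_Ioc]
  have hint : IntegrableOn (fun a : ℝ => Real.pi * (κ * a) ^ 2) (Ioc 0 1) volume := by
    have : Continuous fun a : ℝ => Real.pi * (κ * a) ^ 2 := by fun_prop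
    exact (this.integrableOn_Icc).mono_set Ioc_subset_Icc_self
  rw [← ofReal_integral_eq_lintegral_ofReal hint
    (Eventually.of_forall fun a => by positivity)]
  congr 1
  rw [← intervalIntegral.integral_of_le zero_le_one]
  have h4 : (fun a : ℝ => Real.pi * (κ * a) ^ 2) = fun a => (Real.pi * κ ^ 2) * a ^ 2 := by
    funext a; ring
  rw [h4, intervalIntegral.integral_const_mul, integral_pow]
  norm_num
  ring

/-- the area of the unit sphere, as a measure on space -/
def sig : Measure E3 := ((volume : Measure E3).toSphere).map Subtype.val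

instance : IsFiniteMeasure sig := by unfold sig; infer_instance

theorem exists_rot {v : E3} (hv : ‖v‖ = 1) : ∃ R : O3, R e0 = v := by
  obtain ⟨A, hA⟩ := H76.exists_rot_e0 hv
  exact ⟨A, hA⟩

theorem sig_apply {A : Set E3} (hA : MeasurableSet A) : sig A =
    3 * volume (Ioo (0 : ℝ) 1 • (Subtype.val '' (Subtype.val ⁻¹' A : Set (sphere (0 : E3) 1)))) := by
  unfold sig
  rw [Measure.map_apply measurable_subtype_coe hA,
    Measure.toSphere_apply' _ (measurable_subtype_coe hA)]
  simp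

theorem inner_e0 (w : E3) : inner ℝ w e0 = w 0 := by
  rw [e0, PiLp.inner_apply, Fin.sum_univ_three]
  simp

theorem sig_closedBall_le {v : E3} (hv : ‖v‖ = 1) {r : ℝ} (hr0 : 0 < r) (hr1 : r < 1) :
    sig (closedBall v r) ≤ ENNReal.ofReal (Real.pi * (r / (1 - r ^ 2 / 2)) ^ 2) := by
  obtain ⟨R, hR⟩ := exists_rot hv
  have hc : 0 < 1 - r ^ 2 / 2 := by nlinarith
  set κ := r / (1 - r ^ 2 / 2) with hκ
  have hκ0 : 0 ≤ κ := by positivity
  rw [sig_apply measurableSet_closedBall]
  have hsub : (Ioo (0 : ℝ) 1 • (Subtype.val '' (Subtype.val ⁻¹' closedBall v r :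
      Set (sphere (0 : E3) 1)))) ⊆ R.symm ⁻¹' cone κ := by
    rintro _ ⟨t, ht, _, ⟨w, hw, rfl⟩, rfl⟩
    rw [mem_preimage]
    set w' : E3 := R.symm (w : E3) with hw'
    have hw1 : ‖w'‖ = 1 := by
      rw [hw', LinearIsometryEquiv.norm_map]
      simp
    have hd : ‖w' - e0‖ ≤ r := by
      have h1 : w' - e0 = R.symm ((w : E3) - v) := by
        rw [map_sub, hw', ← hR, LinearIsometryEquiv.symm_apply_apply]
      rw [h1, LinearIsometryEquiv.norm_map]
      exact mem_closedBall_iff_norm.1 hw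
    have h0 : ‖w' - e0‖ ^ 2 = 2 - 2 * w' 0 := by
      rw [norm_sub_sq_real, hw1, H76.norm_e0, inner_e0]
      ring
    have h0' : ‖w' - e0‖ ^ 2 ≤ r ^ 2 := by gcongr
    have hw0 : 1 - r ^ 2 / 2 ≤ w' 0 := by linarith
    have hw01 : w' 0 ≤ 1 := by nlinarith [sq_nonneg ‖w' - e0‖]
    have hsq : w' 0 ^ 2 + (w' 1 ^ 2 + w' 2 ^ 2) = 1 := by
      have h2 := EuclideanSpace.norm_sq_eq w'
      rw [hw1, Fin.sum_univ_three] at h2
      simp only [Real.norm_eq_abs, sq_abs] at h2
      linarith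
    have hz : R.symm (t • (w : E3)) = t • w' := by rw [map_smul]
    change R.symm (t • (w : E3)) ∈ cone κ
    rw [hz]
    have ht0 : 0 < t := ht.1
    have e0' : (t • w') 0 = t * w' 0 := rfl
    have e1' : (t • w') 1 = t * w' 1 := rfl
    have e2' : (t • w') 2 = t * w' 2 := rfl
    refine ⟨?_, ?_, ?_⟩
    · rw [e0']; exact mul_pos ht0 (hc.trans_le hw0)
    · rw [e0']; nlinarith [ht.2, hc.trans_le hw0]
    · rw [e0', e1', e2']
      have h3 : w' 1 ^ 2 + w' 2 ^ 2 ≤ (κ * w' 0) ^ 2 := by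
        have h4 : r ≤ κ * w' 0 := by
          rw [hκ, div_mul_eq_mul_div, le_div_iff₀ hc]
          gcongr
        have h5 : r ^ 2 ≤ (κ * w' 0) ^ 2 := by gcongr
        have h6 : w' 1 ^ 2 + w' 2 ^ 2 ≤ r ^ 2 := by nlinarith [sq_nonneg (1 - w' 0)]
        linarith
      have h7 : (t * w' 1) ^ 2 + (t * w' 2) ^ 2 = t ^ 2 * (w' 1 ^ 2 + w' 2 ^ 2) := by ring
      have h8 : (κ * (t * w' 0)) ^ 2 = t ^ 2 * (κ * w' 0) ^ 2 := by ring
      rw [h7, h8]
      gcongr
  have hvol : volume (R.symm ⁻¹' cone κ) = volume (cone κ) :=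
    R.symm.measurePreserving.measure_preimage (measurableSet_cone κ).nullMeasurableSet
  calc 3 * volume (Ioo (0 : ℝ) 1 • (Subtype.val '' (Subtype.val ⁻¹' closedBall v r :
        Set (sphere (0 : E3) 1)))) ≤ 3 * volume (R.symm ⁻¹' cone κ) := by
        gcongr
    _ = ENNReal.ofReal (Real.pi * κ ^ 2) := by
        rw [hvol, volume_cone hκ0]
        have : (3 : ℝ≥0∞) = ENNReal.ofReal 3 := by simp
        rw [this, ← ENNReal.ofReal_mul (by norm_num)]
        congr 1
        ring

theorem sig_norm : ∀ᵐ v ∂sig, ‖v‖ = 1 := by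
  unfold sig
  rw [ae_map_iff measurable_subtype_coe.aemeasurable]
  · exact Eventually.of_forall fun w => by simp
  · exact measurableSet_eq_fun measurable_norm measurable_const

/-- **Differentiation on the sphere.** -/
theorem lintegral_sig_le {N : Measure E3} [IsFiniteMeasure N] {G : E3 → ℝ≥0∞}
    (hG : ∀ v : E3, ‖v‖ = 1 → ∀ a : ℝ≥0∞, a < G v →
      ∀ᶠ r : ℝ in 𝓝[>] 0, a * ENNReal.ofReal (Real.pi * r ^ 2) ≤ N (closedBall v r)) :
    ∫⁻ v, G v ∂sig ≤ N univ := by
  have hmain : ∀ᵐ v ∂sig, G v ≤ N.rnDeriv sig v := by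
    filter_upwards [Besicovitch.ae_tendsto_rnDeriv N sig, sig_norm] with v hv hv1
    refine le_of_forall_lt fun a ha => ?_
    obtain ⟨b, hab, hb⟩ := exists_between ha
    refine hab.trans_le ?_
    have hbt : b ≠ ⊤ := (hb.trans_le le_top).ne
    -- the lower bound of the quotient
    have h1 : ∀ᶠ r : ℝ in 𝓝[>] 0, b * ENNReal.ofReal ((1 - r ^ 2 / 2) ^ 2) ≤
        N (closedBall v r) / sig (closedBall v r) := by
      have hr1 : ∀ᶠ r : ℝ in 𝓝[>] 0, r < 1 :=
        nhdsWithin_le_nhds (eventually_lt_nhds one_pos)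
      filter_upwards [hG v hv1 b hb, hr1, self_mem_nhdsWithin] with r h2 h3 h4
      have h4' : 0 < r := h4
      have hc : 0 < 1 - r ^ 2 / 2 := by nlinarith
      have h5 := sig_closedBall_le hv1 h4' h3
      have hp : 0 < Real.pi * (r / (1 - r ^ 2 / 2)) ^ 2 := by positivity
      calc b * ENNReal.ofReal ((1 - r ^ 2 / 2) ^ 2)
          = b * ENNReal.ofReal (Real.pi * r ^ 2) /
              ENNReal.ofReal (Real.pi * (r / (1 - r ^ 2 / 2)) ^ 2) := by
            rw [mul_div_assoc, ← ENNReal.ofReal_div_of_pos hp]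
            congr 2
            field_simp
        _ ≤ N (closedBall v r) / ENNReal.ofReal (Real.pi * (r / (1 - r ^ 2 / 2)) ^ 2) := by
            gcongr
        _ ≤ N (closedBall v r) / sig (closedBall v r) := by gcongr
    have h2 : Tendsto (fun r : ℝ => b * ENNReal.ofReal ((1 - r ^ 2 / 2) ^ 2)) (𝓝[>] 0) (𝓝 b) := by
      have h3 : Tendsto (fun r : ℝ => (1 - r ^ 2 / 2) ^ 2) (𝓝[>] 0) (𝓝 ((1 - 0 ^ 2 / 2) ^ 2)) :=
        (Continuous.tendsto (by fun_prop) 0).mono_left nhdsWithin_le_nhds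
      have h4 := ENNReal.Tendsto.const_mul ((ENNReal.continuous_ofReal.tendsto _).comp h3)
        (Or.inr hbt) (a := b)
      simpa using h4
    exact le_of_tendsto_of_tendsto h2 hv h1
  calc ∫⁻ v, G v ∂sig ≤ ∫⁻ v, N.rnDeriv sig v ∂sig := lintegral_mono_ae hmain
    _ ≤ N univ := Measure.lintegral_rnDeriv_le

/-- polar coordinates in the unit ball -/
theorem lintegral_ball {G : E3 → ℝ≥0∞} (hG : Measurable G) :
    3 * ∫⁻ z in ball (0 : E3) 1, G (‖z‖⁻¹ • z) = ∫⁻ v, G v ∂sig := by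
  have hd : Module.finrank ℝ E3 - 1 = 2 := by simp
  have hmp := (volume : Measure E3).measurePreserving_homeomorphUnitSphereProd
  rw [hd] at hmp
  set f : E3 → ℝ≥0∞ := (ball (0 : E3) 1).indicator fun z => G (‖z‖⁻¹ • z) with hf
  have hfm : Measurable f := by
    refine Measurable.indicator ?_ measurableSet_ball
    exact hG.comp (measurable_norm.inv.smul measurable_id)
  have h1 : ∫⁻ z in ball (0 : E3) 1, G (‖z‖⁻¹ • z) = ∫⁻ z, f z := by
    rw [hf, lintegral_indicator measurableSet_ball]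
  have h2 : ∫⁻ z, f z = ∫⁻ z : ({0}ᶜ : Set E3), f z ∂((volume : Measure E3).comap Subtype.val) := by
    rw [← lintegral_map (f := f) hfm measurable_subtype_coe,
      (MeasurableEmbedding.subtype_coe (measurableSet_singleton (0 : E3)).compl).map_comap,
      Subtype.range_coe]
    rw [Measure.restrict_eq_self_of_ae_mem]
    exact compl_mem_ae_iff.2 (measure_singleton _)
  have h3 : ∫⁻ z : ({0}ᶜ : Set E3), f z ∂((volume : Measure E3).comap Subtype.val) =
      ∫⁻ p : sphere (0 : E3) 1 × Ioi (0 : ℝ),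
        (Iio (1 : ℝ)).indicator (fun _ => G (p.1 : E3)) (p.2 : ℝ)
        ∂((volume : Measure E3).toSphere.prod (Measure.volumeIoiPow 2)) := by
    have hgm : Measurable fun p : sphere (0 : E3) 1 × Ioi (0 : ℝ) =>
        (Iio (1 : ℝ)).indicator (fun _ => G (p.1 : E3)) (p.2 : ℝ) := by
      have e : (fun p : sphere (0 : E3) 1 × Ioi (0 : ℝ) =>
          (Iio (1 : ℝ)).indicator (fun _ => G (p.1 : E3)) (p.2 : ℝ)) =
          ((fun p : sphere (0 : E3) 1 × Ioi (0 : ℝ) => (p.2 : ℝ)) ⁻¹' Iio 1).indicator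
            fun p => G (p.1 : E3) := by
        funext p
        by_cases hp : (p.2 : ℝ) ∈ Iio (1 : ℝ)
        · rw [indicator_of_mem hp, indicator_of_mem (show p ∈ _ from hp)]
        · rw [indicator_of_notMem hp, indicator_of_notMem (show p ∉ _ from hp)]
      rw [e]
      exact (hG.comp (measurable_subtype_coe.comp measurable_fst)).indicator
        ((measurable_subtype_coe.comp measurable_snd) measurableSet_Iio)
    rw [← hmp.lintegral_comp hgm]
    refine lintegral_congr fun z => ?_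
    have hz : (z : E3) ≠ 0 := z.2
    have e1 : ((homeomorphUnitSphereProd E3 z).2 : ℝ) = ‖(z : E3)‖ := by
      simp [homeomorphUnitSphereProd]
    have e2 : ((homeomorphUnitSphereProd E3 z).1 : E3) = ‖(z : E3)‖⁻¹ • (z : E3) := by
      simp [homeomorphUnitSphereProd]
    rw [e1, e2, hf]
    by_cases h : (z : E3) ∈ ball (0 : E3) 1
    · rw [indicator_of_mem h, indicator_of_mem (show ‖(z : E3)‖ ∈ Iio (1 : ℝ) from
        mem_ball_zero_iff.1 h)]
    · rw [indicator_of_notMem h, indicator_of_notMem (show ‖(z : E3)‖ ∉ Iio (1 : ℝ) from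
        fun h' => h (mem_ball_zero_iff.2 h'))]
  have h4 : ∫⁻ p : sphere (0 : E3) 1 × Ioi (0 : ℝ),
        (Iio (1 : ℝ)).indicator (fun _ => G (p.1 : E3)) (p.2 : ℝ)
        ∂((volume : Measure E3).toSphere.prod (Measure.volumeIoiPow 2)) =
      ∫⁻ w : sphere (0 : E3) 1, G (w : E3) * ENNReal.ofReal (1 / 3) ∂(volume : Measure E3).toSphere := by
    have hgm : Measurable fun p : sphere (0 : E3) 1 × Ioi (0 : ℝ) =>
        (Iio (1 : ℝ)).indicator (fun _ => G (p.1 : E3)) (p.2 : ℝ) := by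
      have e : (fun p : sphere (0 : E3) 1 × Ioi (0 : ℝ) =>
          (Iio (1 : ℝ)).indicator (fun _ => G (p.1 : E3)) (p.2 : ℝ)) =
          ((fun p : sphere (0 : E3) 1 × Ioi (0 : ℝ) => (p.2 : ℝ)) ⁻¹' Iio 1).indicator
            fun p => G (p.1 : E3) := by
        funext p
        by_cases hp : (p.2 : ℝ) ∈ Iio (1 : ℝ)
        · rw [indicator_of_mem hp, indicator_of_mem (show p ∈ _ from hp)]
        · rw [indicator_of_notMem hp, indicator_of_notMem (show p ∉ _ from hp)]
      rw [e]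
      exact (hG.comp (measurable_subtype_coe.comp measurable_fst)).indicator
        ((measurable_subtype_coe.comp measurable_snd) measurableSet_Iio)
    rw [lintegral_prod _ hgm.aemeasurable]
    refine lintegral_congr fun w => ?_
    have e3 : (fun r : Ioi (0 : ℝ) => (Iio (1 : ℝ)).indicator (fun _ => G (w : E3)) (r : ℝ)) =
        (Iio (⟨1, mem_Ioi.2 one_pos⟩ : Ioi (0 : ℝ))).indicator fun _ => G (w : E3) := by
      funext r
      by_cases hr : (r : ℝ) < 1
      · rw [indicator_of_mem (show (r : ℝ) ∈ Iio (1 : ℝ) from hr),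
          indicator_of_mem (show r ∈ Iio (⟨1, mem_Ioi.2 one_pos⟩ : Ioi (0 : ℝ)) from hr)]
      · rw [indicator_of_notMem (show (r : ℝ) ∉ Iio (1 : ℝ) from hr),
          indicator_of_notMem (show r ∉ Iio (⟨1, mem_Ioi.2 one_pos⟩ : Ioi (0 : ℝ)) from hr)]
    rw [e3, lintegral_indicator measurableSet_Iio, setLIntegral_const,
      Measure.volumeIoiPow_apply_Iio]
    norm_num
  have h6 : ∫⁻ w : sphere (0 : E3) 1, G (w : E3) * ENNReal.ofReal (1 / 3)
      ∂(volume : Measure E3).toSphere = (∫⁻ w : sphere (0 : E3) 1, G (w : E3)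
      ∂(volume : Measure E3).toSphere) * ENNReal.ofReal (1 / 3) :=
    lintegral_mul_const _ (hG.comp measurable_subtype_coe)
  rw [h1, h2, h3, h4, h6]
  unfold sig
  rw [lintegral_map hG measurable_subtype_coe]
  rw [mul_comm, mul_assoc]
  have h5 : ENNReal.ofReal (1 / 3) * 3 = 1 := by
    have : (3 : ℝ≥0∞) = ENNReal.ofReal 3 := by simp
    rw [this, ← ENNReal.ofReal_mul (by norm_num)]
    norm_num
  rw [h5, mul_one]

end Vale.Agent.P207.N3.H646
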