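import Vale.Agent.P207.N3.H646.Dens

/-!
Line N3 of P207, package P2, part (i): the densities of the Margulis areas and their transformation
rule.
-/

open Set Filter Topology Metric MeasureTheory
open scoped ContDiff

noncomputable section

namespace Vale.Agent.P207.N3.H646

set_option linter.unusedSectionVars false

variable {Γ X B : Type} [Group Γ] [MetricSpace X] [ProperSpace X] [MulAction Γ X]
  [IsIsometricSMul Γ X] [TopologicalSpace B] [CompactSpace B] [T2Space B] [MulAction Γ B]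
  [ContinuousConstSMul Γ B]

variable (L : Leaf Γ X B)

/-- the unstable Jacobian is `e^{h t}` up to the coboundary of `ρ` -/
structure Coc (ρ : X → ℝ) (h : ℝ) : Prop where
  cont : Continuous ρ
  smul : ∀ (g : Γ) x, ρ (g • x) = ρ x
  rot : ∀ a x, ρ (L.rot a x) = ρ x
  coc : ∀ x, ∀ t ≥ (0 : ℝ), ρ (L.φ t x) - ρ x
    = h * t + Real.log |(fderiv ℝ (L.τ (L.φ t x) x) 0).det|

/-- the density of the area -/
def dens (ρ : X → ℝ) (x : X) (u : E2) : ℝ := Real.exp (ρ x + Fs L x u)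

variable {L}

theorem jc_dens {ρ : X → ℝ} (hρ : Continuous ρ) :
    JC ((univ : Set X) ×ˢ ball (0 : E2) 3) (dens L ρ) := by
  have h1 : JC ((univ : Set X) ×ˢ ball (0 : E2) 3) (fun x u => ρ x + Fs L x u) :=
    (JC.of_param hρ.continuousOn).add (jc_Fs L)
  exact JC.post (g := Real.exp) isOpen_univ h1 Real.contDiff_exp.contDiffOn fun _ _ => trivial

theorem dens_pos (ρ : X → ℝ) (x : X) (u : E2) : 0 < dens L ρ x u := Real.exp_pos _

theorem dens_zero (ρ : X → ℝ) (x : X) : dens L ρ x 0 = Real.exp (ρ x) := by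
  have h1 : Fs L x 0 = 0 := by
    have h2 : ∀ i, tm L i x 0 = 0 := fun i => by simp [tm, pm_zero]
    simp [Fs, h2]
  simp [dens, h1]

theorem tm_smul (i : ℕ) (g : Γ) (x : X) {u : E2} (hu : u ∈ ball (0 : E2) 3) :
    tm L i (g • x) u = tm L i x u := by
  have h1 : pm L (tt L i) (g • x) u = pm L (tt L i) x u :=
    (pm_smul_eventually L (t1_le_tt L i) g x hu).eq_of_nhds
  have h2 : ∀ w ∈ ball (0 : E2) 3, ell L (L.φ (-tt L i) (g • x)) w = ell L (L.φ (-tt L i) x) w :=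
    fun w hw => by
      rw [L.φ_smul]
      exact (ell_smul_eventually L g _ hw).eq_of_nhds
  unfold tm
  rw [h1, h2 _ (ball_subset_ball (by norm_num) (pm_mem L (t1_le_tt L i) x hu)), h2 _ zero_mem3]

theorem dens_smul {ρ : X → ℝ} {h : ℝ} (hc : Coc L ρ h) (g : Γ) (x : X) {u : E2}
    (hu : u ∈ ball (0 : E2) 3) : dens L ρ (g • x) u = dens L ρ x u := by
  have h1 : ∀ i, tm L i (g • x) u = tm L i x u := fun i => tm_smul i g x hu
  unfold dens Fs
  simp_rw [h1]
  rw [hc.smul, (ell_smul_eventually L g x hu).eq_of_nhds,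
    (ell_smul_eventually L g x zero_mem3).eq_of_nhds]

/-! ### The cocycle for all times -/

theorem zero_dm {x y : X} (h : L.ep x = L.ep y) : (0 : E2) ∈ L.dm x y :=
  mem_dm_of L zero_mem3 zero_mem3 (by rw [L.e_zero, L.e_zero, h])

theorem tau_zero {x y : X} (h : L.ep x = L.ep y) : L.τ x y 0 = 0 :=
  tau_of L (ball_sub zero_mem3) (by rw [L.e_zero, L.e_zero, h])

theorem Coc.all {ρ : X → ℝ} {h : ℝ} (hc : Coc L ρ h) (x : X) (c : ℝ) :
    ρ (L.φ c x) - ρ x = h * c + Real.log |(fderiv ℝ (L.τ (L.φ c x) x) 0).det| := by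
  rcases le_total 0 c with h0 | h0
  · exact hc.coc x c h0
  · have h1 := hc.coc (L.φ c x) (-c) (by linarith)
    rw [L.φ_neg] at h1
    have hem : L.em x = L.em (L.φ c x) := (L.em_φ c x).symm
    have hep : L.ep x = L.ep (L.φ c x) := (L.ep_φ c x).symm
    have h2 := congrArg ContinuousLinearMap.det (fderiv_tau_inv L hem (zero_dm hep))
    rw [det_comp, tau_zero hep] at h2
    have h3 : (ContinuousLinearMap.id ℝ E2).det = 1 := by simp [ContinuousLinearMap.det]
    rw [h3] at h2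
    have h4 : Real.log |(fderiv ℝ (L.τ (L.φ c x) x) 0).det| +
        Real.log |(fderiv ℝ (L.τ x (L.φ c x)) 0).det| = 0 := by
      rw [← Real.log_mul, ← abs_mul, h2]
      · simp
      · exact abs_ne_zero.mpr (det_ne_zero L hem.symm (zero_dm hep.symm))
      · exact abs_ne_zero.mpr (det_ne_zero L hem (zero_dm hep))
    linarith

/-- isometries of the plane have determinant `1` up to sign -/
theorem abs_det_rot (a : O2) : |(a.toContinuousLinearEquiv : E2 →L[ℝ] E2).det| = 1 := by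
  have h1 := LinearMap.normDet_eq_abs_det (a.toLinearIsometry.toLinearMap : E2 →ₗ[ℝ] E2)
  rw [LinearIsometry.normDet_eq_one] at h1
  exact h1.symm

theorem rot_ball (a : O2) {u : E2} {r : ℝ} (hu : u ∈ ball (0 : E2) r) :
    a u ∈ ball (0 : E2) r := by
  rw [mem_ball_zero_iff] at hu ⊢
  rwa [LinearIsometryEquiv.norm_map]

theorem tau_rot_eventually (a : O2) {z y : X} {u : E2} (hu : a u ∈ L.dm z y) :
    L.τ (L.rot a z) y =ᶠ[𝓝 u] fun w => L.τ z y (a w) := by
  have h1 : ∀ᶠ w in 𝓝 u, a w ∈ L.dm z y :=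
    a.continuous.continuousAt.eventually ((isOpen_dm L z y).mem_nhds hu)
  filter_upwards [h1] with w hw
  have hw3 : w ∈ ball (0 : E2) 3 := by
    have h2 := mem_ball_zero_iff.mp hw.1
    rw [LinearIsometryEquiv.norm_map] at h2
    exact mem_ball_zero_iff.mpr h2
  refine tau_of L (ball_sub (tau_mem L hw)) ?_
  rw [L.e_rot a z w (ball_sub hw3), e_tau L hw]

theorem abs_det_tau_rot (a : O2) {z y : X} (hem : L.em z = L.em y) (hep : L.ep z = L.ep y) :
    |(fderiv ℝ (L.τ (L.rot a z) y) 0).det| = |(fderiv ℝ (L.τ z y) 0).det| := by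
  have h0 : a 0 ∈ L.dm z y := by rw [map_zero]; exact zero_dm hep
  have h1 : fderiv ℝ (L.τ (L.rot a z) y) 0 = fderiv ℝ (fun w => L.τ z y (a w)) 0 :=
    Filter.EventuallyEq.fderiv_eq (𝕜 := ℝ) (tau_rot_eventually a h0)
  have h3 : HasFDerivAt (fun w : E2 => a w) (a.toContinuousLinearEquiv : E2 →L[ℝ] E2) 0 :=
    (a.toContinuousLinearEquiv : E2 →L[ℝ] E2).hasFDerivAt
  have h2 : HasFDerivAt (fun w => L.τ z y (a w))
      ((fderiv ℝ (L.τ z y) (a 0)).comp (a.toContinuousLinearEquiv : E2 →L[ℝ] E2)) 0 :=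
    (tau_hasFDerivAt L hem h0).comp (0 : E2) h3
  rw [h1, h2.fderiv, det_comp, abs_mul, abs_det_rot, mul_one, map_zero]

/-- the jump of `ρ` between two frames of a geodesic -/
theorem Coc.pair {ρ : X → ℝ} {h : ℝ} (hc : Coc L ρ h) {x y : X} (hem : L.em x = L.em y)
    (hep : L.ep x = L.ep y) :
    ρ x - ρ y - Real.log |(fderiv ℝ (L.τ x y) 0).det| = h * (L.lv x - L.lv y) := by
  obtain ⟨a, ha⟩ := L.frame_unique (L.φ (L.lv x - L.lv y) y) x (by rw [L.em_φ, hem])
    (by rw [L.ep_φ, hep]) (by rw [L.lv_φ]; ring)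
  have h1 := hc.all y (L.lv x - L.lv y)
  have h2 := hc.rot a (L.φ (L.lv x - L.lv y) y)
  rw [← ha] at h2
  have h3 : |(fderiv ℝ (L.τ x y) 0).det| =
      |(fderiv ℝ (L.τ (L.φ (L.lv x - L.lv y) y) y) 0).det| := by
    conv_lhs => rw [ha]
    exact abs_det_tau_rot a (by rw [L.em_φ]) (by rw [L.ep_φ])
  rw [h3]
  linarith

/-! ### Transformation rule -/

theorem t1_tendsto (c : ℝ) : Tendsto (fun N => c * Real.exp (-L.χ * tt L N)) atTop (𝓝 0) := by
  have h1 : ∀ N : ℕ, Real.exp (-L.χ * tt L N) = Real.exp (-L.χ * L.t1) ^ (N + 1) := exp_tt L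
  simp_rw [h1]
  have h2 : Real.exp (-L.χ * L.t1) < 1 := by
    rw [Real.exp_lt_one_iff]
    nlinarith [mul_pos L.χ_pos L.t1_pos]
  have h3 := ((tendsto_pow_atTop_nhds_zero_of_lt_one (Real.exp_pos _).le h2).comp
    (tendsto_add_atTop_nat 1)).const_mul c
  rw [mul_zero] at h3
  exact h3

theorem pm_tendsto (x : X) {u : E2} (hu : u ∈ ball (0 : E2) 3) :
    Tendsto (fun N => pm L (tt L N) x u) atTop (𝓝 0) := by
  obtain ⟨C, _, hC⟩ := pm_small L
  exact squeeze_zero_norm (fun N => hC x (tt L N) (t1_le_tt L N) u hu) (t1_tendsto C)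

theorem pm_mem_dm {x y : X} {t : ℝ} (ht : L.t1 ≤ t) {u : E2} (hu : u ∈ L.dm x y) :
    pm L t x u ∈ L.dm (L.φ (-t) x) (L.φ (-t) y) := by
  have h1 := ball_subset_ball (by norm_num : (1 : ℝ) ≤ 3) (pm_mem L ht x hu.1)
  have h2 := ball_subset_ball (by norm_num : (1 : ℝ) ≤ 3) (pm_mem L ht y (tau_mem L hu))
  refine mem_dm_of L h1 h2 ?_
  rw [e_pm L ht x hu.1, e_pm L ht y (tau_mem L hu), e_tau L hu]

theorem tendsto_of_pr {ι : Type*} {l : Filter ι} {p : ι → Pr L} {x y : X}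
    (hx : Tendsto (fun i => (p i).1.1) l (𝓝 x)) (hy : Tendsto (fun i => (p i).1.2) l (𝓝 y))
    (hxy : L.em x = L.em y) : Tendsto p l (𝓝 (⟨(x, y), hxy⟩ : Pr L)) := by
  rw [tendsto_subtype_rng]
  exact hx.prodMk_nhds hy

/-- KEY LIMIT: asymptotic comparison of two past orbits -/
theorem key_limit {ρ : X → ℝ} {h : ℝ} (hc : Coc L ρ h) {x y : X} (hem : L.em x = L.em y)
    {u : E2} (hu : u ∈ L.dm x y) :
    Tendsto (fun N => ρ (L.φ (-tt L N) x) - ρ (L.φ (-tt L N) y) -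
      Real.log |(fderiv ℝ (L.τ (L.φ (-tt L N) x) (L.φ (-tt L N) y)) (pm L (tt L N) x u)).det|)
      atTop (𝓝 (h * (L.lv x - L.lv y))) := by
  refine tendsto_of_subseq_tendsto fun ns hns => ?_
  set xs : ℕ → X := fun n => L.φ (-tt L (ns n)) x with hxs
  set ys : ℕ → X := fun n => L.φ (-tt L (ns n)) y with hys
  set us : ℕ → E2 := fun n => pm L (tt L (ns n)) x u with hus
  set vs : ℕ → E2 := fun n => pm L (tt L (ns n)) y (L.τ x y u) with hvs
  have hemn : ∀ n, L.em (xs n) = L.em (ys n) := fun n => by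
    simp only [hxs, hys, L.em_φ, hem]
  have hlv : ∀ n, L.lv (xs n) - L.lv (ys n) = L.lv x - L.lv y := fun n => by
    simp only [hxs, hys, L.lv_φ]; ring
  have hun : ∀ n, us n ∈ L.dm (xs n) (ys n) := fun n => pm_mem_dm (t1_le_tt L _) hu
  have hu3 : ∀ n, us n ∈ ball (0 : E2) 3 := fun n => (hun n).1
  have hv3 : ∀ n, vs n ∈ ball (0 : E2) 3 := fun n =>
    ball_subset_ball (by norm_num) (pm_mem L (t1_le_tt L _) y (tau_mem L hu))
  have heq : ∀ n, L.e (xs n) (us n) = L.e (ys n) (vs n) := fun n => by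
    simp only [hxs, hys, hus, hvs]
    rw [e_pm L (t1_le_tt L _) x hu.1, e_pm L (t1_le_tt L _) y (tau_mem L hu), e_tau L hu]
  have husl : Tendsto us atTop (𝓝 0) := (pm_tendsto x hu.1).comp hns
  have hvsl : Tendsto vs atTop (𝓝 0) := (pm_tendsto y (tau_mem L hu)).comp hns
  -- bounded distance
  obtain ⟨C, hC⟩ := L.near |L.lv x - L.lv y|
  have hd : ∀ n, dist (xs n) (ys n) ≤ C := fun n =>
    hC _ _ (hemn n) (by rw [hlv]) ⟨L.e (xs n) (us n), mem_image_of_mem _ (ball_sub (hu3 n)),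
      by rw [heq]; exact mem_image_of_mem _ (ball_sub (hv3 n))⟩
  -- limits
  obtain ⟨g, w, ψ, hψ, hlim⟩ := L.exists_limit xs
  have hbd : ∀ᶠ n in atTop, g (ψ n) • ys (ψ n) ∈ closedBall w (C + 1) := by
    have h1 := (tendsto_order.mp (tendsto_iff_dist_tendsto_zero.mp hlim)).2 1 one_pos
    filter_upwards [h1] with n hn
    rw [mem_closedBall]
    calc dist (g (ψ n) • ys (ψ n)) w ≤ dist (g (ψ n) • ys (ψ n)) (g (ψ n) • xs (ψ n)) +
          dist (g (ψ n) • xs (ψ n)) w := dist_triangle _ _ _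
      _ ≤ C + 1 := by
        rw [dist_smul, dist_comm]
        exact add_le_add (hd _) hn.le
  obtain ⟨z, _, ψ', hψ', hlim'⟩ := (isCompact_closedBall w (C + 1)).tendsto_subseq'
    hbd.frequently
  refine ⟨fun n => ψ (ψ' n), ?_⟩
  have hX : Tendsto (fun n => g (ψ (ψ' n)) • xs (ψ (ψ' n))) atTop (𝓝 w) :=
    hlim.comp hψ'.tendsto_atTop
  have hY : Tendsto (fun n => g (ψ (ψ' n)) • ys (ψ (ψ' n))) atTop (𝓝 z) := hlim'
  have hU : Tendsto (fun n => us (ψ (ψ' n))) atTop (𝓝 0) :=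
    husl.comp (hψ.comp hψ').tendsto_atTop
  have hV : Tendsto (fun n => vs (ψ (ψ' n))) atTop (𝓝 0) :=
    hvsl.comp (hψ.comp hψ').tendsto_atTop
  have hemg : ∀ n, L.em (g n • xs n) = L.em (g n • ys n) := fun n => by
    rw [L.em_smul, L.em_smul, hemn]
  have hemw : L.em w = L.em z := by
    have h1 := (L.em_cont.tendsto w).comp hX
    have h2 := (L.em_cont.tendsto z).comp hY
    refine tendsto_nhds_unique h1 (h2.congr fun n => ?_)
    exact (hemg _).symm
  have hlvw : L.lv w - L.lv z = L.lv x - L.lv y := by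
    have h1 := ((L.lv_cont.tendsto w).comp hX).sub ((L.lv_cont.tendsto z).comp hY)
    refine tendsto_nhds_unique h1 (tendsto_const_nhds.congr fun n => ?_)
    simp only [Function.comp_apply]
    rw [L.lv_smul _ _ _ (hemn _), hlv]
  have hepw : L.ep w = L.ep z := by
    have hE : ∀ {a : ℕ → X} {b : ℕ → E2} {w : X}, Tendsto a atTop (𝓝 w) →
        Tendsto b atTop (𝓝 0) → (∀ n, b n ∈ ball (0 : E2) 3) →
        Tendsto (fun n => L.e (a n) (b n)) atTop (𝓝 (L.ep w)) := by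
      intro a b w ha hb hb3
      have h1 : Tendsto (fun n => (a n, b n)) atTop (𝓝[univ ×ˢ closedBall 0 3] (w, 0)) :=
        tendsto_nhdsWithin_iff.mpr ⟨ha.prodMk_nhds hb,
          Eventually.of_forall fun n => ⟨trivial, ball_sub (hb3 n)⟩⟩
      have h2 := (L.e_cont (w, 0) ⟨trivial, ball_sub zero_mem3⟩).tendsto.comp h1
      simp only [L.e_zero] at h2
      exact h2
    have h1 := hE hX hU (fun n => hu3 _)
    have h2 := hE hY hV (fun n => hv3 _)
    refine tendsto_nhds_unique h1 (h2.congr fun n => ?_)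
    rw [L.e_smul _ _ _ (ball_sub (hu3 _)), L.e_smul _ _ _ (ball_sub (hv3 _)), heq]
  -- convergence of the derivative
  have h0 : (0 : E2) ∈ L.dm w z := zero_dm hepw
  have hP : Tendsto (fun n => ((⟨(g (ψ (ψ' n)) • xs (ψ (ψ' n)), g (ψ (ψ' n)) • ys (ψ (ψ' n))),
      hemg _⟩ : Pr L), us (ψ (ψ' n)))) atTop
      (𝓝[{p : Pr L × E2 | p.2 ∈ L.dm p.1.1.1 p.1.1.2}] ((⟨(w, z), hemw⟩ : Pr L), (0 : E2))) := by
    refine tendsto_nhdsWithin_iff.mpr ⟨(tendsto_of_pr hX hY hemw).prodMk_nhds hU,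
      Eventually.of_forall fun n => ?_⟩
    exact mem_dm_smul L (hun _)
  have hcont := (jc_tau L).fderiv.continuousOn ((⟨(w, z), hemw⟩ : Pr L), (0 : E2)) h0
  have hder : Tendsto (fun n => fderiv ℝ (L.τ (xs (ψ (ψ' n))) (ys (ψ (ψ' n))))
      (us (ψ (ψ' n)))) atTop (𝓝 (fderiv ℝ (L.τ w z) 0)) := by
    refine (hcont.tendsto.comp hP).congr fun n => ?_
    exact (tau_smul_eventually L (g := g (ψ (ψ' n))) (hun (ψ (ψ' n)))).fderiv_eq
  have hdet : Tendsto (fun n => Real.log |(fderiv ℝ (L.τ (xs (ψ (ψ' n))) (ys (ψ (ψ' n))))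
      (us (ψ (ψ' n)))).det|) atTop (𝓝 (Real.log |(fderiv ℝ (L.τ w z) 0).det|)) := by
    have h1 := (contDiff_det.continuous.tendsto _).comp hder
    have h2 : |(fderiv ℝ (L.τ w z) 0).det| ≠ 0 := abs_ne_zero.mpr (det_ne_zero L hemw h0)
    exact (Real.continuousAt_log h2).tendsto.comp h1.abs
  have hρ : Tendsto (fun n => ρ (xs (ψ (ψ' n))) - ρ (ys (ψ (ψ' n)))) atTop (𝓝 (ρ w - ρ z)) := by
    have h1 := ((hc.cont.tendsto w).comp hX).sub ((hc.cont.tendsto z).comp hY)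
    refine h1.congr fun n => ?_
    simp only [Function.comp_apply, hc.smul]
  have hfin := hρ.sub hdet
  rw [hc.pair hemw hepw, hlvw] at hfin
  exact hfin

/-- the density as a limit -/
theorem dens_tendsto {ρ : X → ℝ} {h : ℝ} (hc : Coc L ρ h) (x : X) {u : E2}
    (hu : u ∈ ball (0 : E2) 3) :
    Tendsto (fun N => ρ (L.φ (-tt L N) x) + h * tt L N + ld L N x u) atTop
      (𝓝 (ρ x + Fs L x u)) := by
  have h1 := (ld_tendsto L x hu).const_add (ρ x)
  refine h1.congr fun N => ?_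
  have h2 := hc.coc (L.φ (-tt L N) x) (tt L N) (L.t1_pos.le.trans (t1_le_tt L N))
  rw [φ_back] at h2
  have h3 : Real.log |(fderiv ℝ (L.τ x (L.φ (-tt L N) x)) 0).det| = ld L N x 0 := by
    rw [Real.log_abs]; rfl
  rw [h3] at h2
  linarith

theorem dens_trans {ρ : X → ℝ} {h : ℝ} (hc : Coc L ρ h) {x y : X} (hem : L.em x = L.em y)
    {u : E2} (hu : u ∈ L.dm x y) :
    dens L ρ x u = Real.exp (h * (L.lv x - L.lv y)) * |(fderiv ℝ (L.τ x y) u).det| *
      dens L ρ y (L.τ x y u) := by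
  have hdet0 := det_ne_zero L hem hu
  have h1 := (dens_tendsto hc x hu.1).sub (dens_tendsto hc y (tau_mem L hu))
  have h2 : Tendsto (fun N => (ρ (L.φ (-tt L N) x) - ρ (L.φ (-tt L N) y) -
      Real.log |(fderiv ℝ (L.τ (L.φ (-tt L N) x) (L.φ (-tt L N) y)) (pm L (tt L N) x u)).det|)
      + Real.log |(fderiv ℝ (L.τ x y) u).det|) atTop
      (𝓝 (h * (L.lv x - L.lv y) + Real.log |(fderiv ℝ (L.τ x y) u).det|)) :=
    (key_limit hc hem hu).add_const _
  have h3 := tendsto_nhds_unique h1 (h2.congr fun N => ?_)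
  · unfold dens
    have h4 : ρ x + Fs L x u = h * (L.lv x - L.lv y) + Real.log |(fderiv ℝ (L.τ x y) u).det| +
        (ρ y + Fs L y (L.τ x y u)) := by linarith
    rw [h4, Real.exp_add, Real.exp_add, Real.exp_log (abs_pos.mpr hdet0)]
  · -- the chain rule in two ways
    have ht := t1_le_tt L N
    have e1 := det_tau_comp L hem (em_back L (tt L N) y) hu (mem_dm_back L ht y (tau_mem L hu))
    have e2 := det_tau_comp L (em_back L (tt L N) x)
      (show L.em (L.φ (-tt L N) x) = L.em (L.φ (-tt L N) y) by rw [L.em_φ, L.em_φ, hem])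
      (mem_dm_back L ht x hu.1) (pm_mem_dm ht hu)
    have e3 : Real.log |(fderiv ℝ (L.τ x (L.φ (-tt L N) y)) u).det| =
        ld L N y (L.τ x y u) + Real.log |(fderiv ℝ (L.τ x y) u).det| := by
      rw [e1, abs_mul, Real.log_mul
        (abs_ne_zero.mpr (det_ne_zero L (em_back L _ y) (mem_dm_back L ht y (tau_mem L hu))))
        (abs_ne_zero.mpr hdet0), Real.log_abs]
      rfl
    have e4 : Real.log |(fderiv ℝ (L.τ x (L.φ (-tt L N) y)) u).det| =
        Real.log |(fderiv ℝ (L.τ (L.φ (-tt L N) x) (L.φ (-tt L N) y))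
          (pm L (tt L N) x u)).det| + ld L N x u := by
      change _ = (fderiv ℝ (L.τ (L.φ (-tt L N) x) (L.φ (-tt L N) y))
        (pm L (tt L N) x u)).det * _ at e2
      rw [e2, abs_mul, Real.log_mul
        (abs_ne_zero.mpr (det_ne_zero L (by rw [L.em_φ, L.em_φ, hem]) (pm_mem_dm ht hu)))
        (abs_ne_zero.mpr (det_ne_zero L (em_back L _ x) (mem_dm_back L ht x hu.1))),
        Real.log_abs (fderiv ℝ (L.τ x (L.φ (-tt L N) x)) u).det]
      rfl
    linarith

end Vale.Agent.P207.N3.H646
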