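import Mathlib

/-!
A function with continuous pure derivatives of all orders in the directions of an orthonormal basis
is smooth, with bounds (Mathlib only; Fourier inversion).
-/

open MeasureTheory Set Filter Topology Metric
open scoped ContDiff FourierTransform Real InnerProductSpace

noncomputable section

set_option linter.unusedSectionVars false

namespace Vale.Agent.P207.N3.H646

variable {V : Type*} [NormedAddCommGroup V] [InnerProductSpace ℝ V] [FiniteDimensional ℝ V]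
  [MeasurableSpace V] [BorelSpace V]

theorem char_line (w e z : V) :
    HasLineDerivAt ℝ (fun v : V => Complex.exp ((↑(-2 * π * ⟪v, w⟫_ℝ) : ℂ) * Complex.I))
      (Complex.exp ((↑(-2 * π * ⟪z, w⟫_ℝ) : ℂ) * Complex.I) *
        (-(2 * π * Complex.I * (⟪e, w⟫_ℝ : ℂ)))) z e := by
  unfold HasLineDerivAt
  have h1 : HasDerivAt (fun t : ℝ => -2 * π * ⟪z + t • e, w⟫_ℝ) (-2 * π * ⟪e, w⟫_ℝ) 0 := by
    have h2 : (fun t : ℝ => -2 * π * ⟪z + t • e, w⟫_ℝ) =
        fun t : ℝ => -2 * π * ⟪z, w⟫_ℝ + t * (-2 * π * ⟪e, w⟫_ℝ) := by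
      funext t
      rw [inner_add_left, real_inner_smul_left]
      ring
    rw [h2]
    have h3 := (hasDerivAt_id (0 : ℝ)).mul_const (-2 * π * ⟪e, w⟫_ℝ)
    have h4 := h3.const_add (-2 * π * ⟪z, w⟫_ℝ)
    rw [one_mul] at h4
    exact h4
  have h5 := (h1.ofReal_comp.mul_const Complex.I).cexp
  have h6 : z + (0 : ℝ) • e = z := by simp
  rw [h6] at h5
  have h7 : ((-2 * π * ⟪e, w⟫_ℝ : ℝ) : ℂ) * Complex.I =
      -(2 * π * Complex.I * (⟪e, w⟫_ℝ : ℂ)) := by
    push_cast; ring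
  rw [h7] at h5
  exact h5

/-- Fourier transform of a line derivative -/
theorem fourier_line {f f' : V → ℂ} {e : V} (hf : Continuous f) (hf' : Continuous f')
    (hs : HasCompactSupport f) (hs' : HasCompactSupport f')
    (hd : ∀ z, HasLineDerivAt ℝ f (f' z) z e) (w : V) :
    𝓕 f' w = (2 * π * Complex.I * (⟪e, w⟫_ℝ : ℂ)) * 𝓕 f w := by
  have hc : Continuous fun v : V => Complex.exp ((↑(-2 * π * ⟪v, w⟫_ℝ) : ℂ) * Complex.I) := by
    fun_prop
  have h1 := integral_bilinear_hasLineDerivAt_right_eq_neg_left_of_integrable (μ := (volume : Measure V))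
    (f := fun v : V => Complex.exp ((↑(-2 * π * ⟪v, w⟫_ℝ) : ℂ) * Complex.I))
    (f' := fun z : V => Complex.exp ((↑(-2 * π * ⟪z, w⟫_ℝ) : ℂ) * Complex.I) *
        (-(2 * π * Complex.I * (⟪e, w⟫_ℝ : ℂ)))) (g := f) (g' := f') (v := e)
    (B := ContinuousLinearMap.mul ℝ ℂ) ?_ ?_ ?_ (fun x _ => char_line w e x) (fun x _ => hd x)
  · rw [Real.fourier_eq', Real.fourier_eq']
    simp only [smul_eq_mul]
    simp only [ContinuousLinearMap.mul_apply'] at h1
    rw [h1, ← integral_neg, ← integral_const_mul]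
    congr 1
    funext v
    ring
  · refine Continuous.integrable_of_hasCompactSupport ?_ (hs.mul_left)
    exact (hc.mul continuous_const).mul hf
  · exact Continuous.integrable_of_hasCompactSupport (hc.mul hf') (hs'.mul_left)
  · exact Continuous.integrable_of_hasCompactSupport (hc.mul hf) (hs.mul_left)

theorem fourier_line_iter {G : ℕ → V → ℂ} {e : V} (hc : ∀ k, Continuous (G k))
    (hs : ∀ k, HasCompactSupport (G k))
    (hd : ∀ k z, HasLineDerivAt ℝ (G k) (G (k + 1) z) z e) (k : ℕ) (w : V) :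
    𝓕 (G k) w = (2 * π * Complex.I * (⟪e, w⟫_ℝ : ℂ)) ^ k * 𝓕 (G 0) w := by
  induction k with
  | zero => simp
  | succ k ih =>
    rw [fourier_line (hc k) (hc (k + 1)) (hs k) (hs (k + 1)) (hd k) w, ih, pow_succ]
    ring

theorem norm_fourier_le_of_support {g : V → ℂ} {R M : ℝ} (hc : Continuous g)
    (hs : ∀ z, z ∉ closedBall (0 : V) R → g z = 0) (hM : ∀ z, ‖g z‖ ≤ M) (w : V) :
    ‖𝓕 g w‖ ≤ M * (volume (closedBall (0 : V) R)).toReal := by
  have h1 : ‖𝓕 g w‖ ≤ ∫ v, ‖g v‖ := by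
    rw [Real.fourier_eq']
    refine (norm_integral_le_integral_norm _).trans (le_of_eq ?_)
    congr 1
    funext v
    rw [norm_smul, Complex.norm_exp_ofReal_mul_I, one_mul]
  refine h1.trans ?_
  have h2 : ∫ v, ‖g v‖ = ∫ v in closedBall (0 : V) R, ‖g v‖ := by
    rw [setIntegral_eq_integral_of_forall_compl_eq_zero]
    intro z hz
    rw [hs z hz, norm_zero]
  rw [h2]
  have h3 : ‖∫ v in closedBall (0 : V) R, ‖g v‖‖ ≤
      M * (volume : Measure V).real (closedBall (0 : V) R) :=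
    norm_setIntegral_le_of_norm_le_const (isCompact_closedBall (0 : V) R).measure_lt_top
      (fun v _ => by rw [norm_norm]; exact hM v)
  exact (le_abs_self _).trans h3

theorem exists_coord {ι : Type*} [Fintype ι] [Nonempty ι] (b : OrthonormalBasis ι ℝ V) (w : V) :
    ∃ i, ‖w‖ ≤ (Fintype.card ι : ℝ) * |⟪b i, w⟫_ℝ| := by
  obtain ⟨i, _, hi⟩ := Finset.exists_max_image (Finset.univ : Finset ι)
    (fun i => |⟪b i, w⟫_ℝ|) Finset.univ_nonempty
  refine ⟨i, ?_⟩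
  have h1 : w = ∑ j, ⟪b j, w⟫_ℝ • b j := (b.sum_repr' w).symm
  calc ‖w‖ = ‖∑ j, ⟪b j, w⟫_ℝ • b j‖ := by rw [← h1]
    _ ≤ ∑ j, ‖⟪b j, w⟫_ℝ • b j‖ := norm_sum_le _ _
    _ = ∑ j, |⟪b j, w⟫_ℝ| := by
        congr 1; funext j; rw [norm_smul, b.norm_eq_one, mul_one, Real.norm_eq_abs]
    _ ≤ ∑ _j : ι, |⟪b i, w⟫_ℝ| := Finset.sum_le_sum fun j hj => hi j hj
    _ = (Fintype.card ι : ℝ) * |⟪b i, w⟫_ℝ| := by
        rw [Finset.sum_const, nsmul_eq_mul, Finset.card_univ]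

/-- **Pure derivatives of all orders give smoothness, with bounds.** -/
theorem pure_smooth {ι : Type*} [Fintype ι] [Nonempty ι] (b : OrthonormalBasis ι ℝ V) (R : ℝ)
    (M : ℕ → ℝ) : ∃ C : ℕ → ℝ, ∀ (G : ι → ℕ → V → ℂ) (g : V → ℂ), (∀ i, G i 0 = g) →
      (∀ i k, Continuous (G i k)) → (∀ i k z, z ∉ closedBall (0 : V) R → G i k z = 0) →
      (∀ i k z, ‖G i k z‖ ≤ M k) →
      (∀ i k z, HasLineDerivAt ℝ (G i k) (G i (k + 1) z) z (b i)) →
      ContDiff ℝ ∞ g ∧ ∀ n z, ‖iteratedFDeriv ℝ n g z‖ ≤ C n := by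
  set d : ℕ := Module.finrank ℝ V + 1 with hd
  set vol : ℝ := (volume (closedBall (0 : V) R)).toReal with hvol
  have hvol0 : 0 ≤ vol := ENNReal.toReal_nonneg
  set c : ℝ := (Fintype.card ι : ℝ) with hc
  have hc0 : 0 ≤ c := Nat.cast_nonneg _
  -- constants of decay
  set D : ℕ → ℝ := fun k => c ^ k * (M k * vol) with hD
  set I0 : ℝ := ∫ w : V, (1 + ‖w‖) ^ (-(d : ℝ)) with hI0
  have hint0 : Integrable (fun w : V => (1 + ‖w‖) ^ (-(d : ℝ))) :=
    integrable_one_add_norm (by rw [hd]; push_cast; linarith)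
  refine ⟨fun n => (2 * π) ^ n * ((2 ^ d * (D n + D (n + d))) * I0), ?_⟩
  intro G g hG0 hcont hsupp hM hder
  have hcs : ∀ i k, HasCompactSupport (G i k) := fun i k =>
    HasCompactSupport.intro (isCompact_closedBall (0 : V) R) fun z hz => hsupp i k z hz
  obtain ⟨i0⟩ := ‹Nonempty ι›
  have hM0 : ∀ k, 0 ≤ M k := fun k => (norm_nonneg _).trans (hM i0 k 0)
  have hD0 : ∀ k, 0 ≤ D k := fun k => by
    have := hM0 k
    positivity
  have hgc : Continuous g := by rw [← hG0 i0]; exact hcont i0 0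
  have hgs : HasCompactSupport g := by rw [← hG0 i0]; exact hcs i0 0
  -- decay of the Fourier transform
  have hdec : ∀ k w, ‖w‖ ^ k * ‖𝓕 g w‖ ≤ D k := by
    intro k w
    have : Nonempty ι := ⟨i0⟩
    obtain ⟨i, hi⟩ := exists_coord b w
    have h1 := fourier_line_iter (e := b i) (hcont i) (hcs i) (hder i) k w
    rw [hG0 i] at h1
    have h2 := norm_fourier_le_of_support (hcont i k) (hsupp i k) (hM i k) w
    rw [h1, norm_mul, norm_pow] at h2
    have h3 : ‖(2 * π * Complex.I * (⟪b i, w⟫_ℝ : ℂ) : ℂ)‖ = 2 * π * |⟪b i, w⟫_ℝ| := by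
      rw [norm_mul, norm_mul, norm_mul, Complex.norm_I, Complex.norm_real, Complex.norm_real]
      simp [abs_of_pos Real.pi_pos]
    rw [h3] at h2
    have h4 : |⟪b i, w⟫_ℝ| ≤ 2 * π * |⟪b i, w⟫_ℝ| := by
      have := Real.pi_gt_three
      nlinarith [abs_nonneg ⟪b i, w⟫_ℝ]
    calc ‖w‖ ^ k * ‖𝓕 g w‖ ≤ (c * |⟪b i, w⟫_ℝ|) ^ k * ‖𝓕 g w‖ := by gcongr
      _ = c ^ k * (|⟪b i, w⟫_ℝ| ^ k * ‖𝓕 g w‖) := by rw [mul_pow]; ring
      _ ≤ c ^ k * ((2 * π * |⟪b i, w⟫_ℝ|) ^ k * ‖𝓕 g w‖) := by gcongr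
      _ ≤ c ^ k * (M k * vol) := by gcongr
      _ = D k := rfl
  have hbd : ∀ n w, ‖w‖ ^ n * ‖𝓕 g w‖ ≤ (2 ^ d * (D n + D (n + d))) * (1 + ‖w‖) ^ (-(d : ℝ)) := by
    intro n w
    have h1 : (0 : ℝ) < 1 + ‖w‖ := by positivity
    rw [Real.rpow_neg h1.le, Real.rpow_natCast, ← div_eq_mul_inv, le_div_iff₀ (by positivity)]
    have h2 : (1 + ‖w‖) ^ d ≤ 2 ^ d * (1 + ‖w‖ ^ d) := by
      rcases le_total ‖w‖ 1 with hw | hw
      · calc (1 + ‖w‖) ^ d ≤ 2 ^ d := by gcongr; linarith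
          _ ≤ 2 ^ d * (1 + ‖w‖ ^ d) := le_mul_of_one_le_right (by positivity)
            (by linarith [pow_nonneg (norm_nonneg w) d])
      · calc (1 + ‖w‖) ^ d ≤ (2 * ‖w‖) ^ d := by gcongr; linarith
          _ = 2 ^ d * ‖w‖ ^ d := by rw [mul_pow]
          _ ≤ 2 ^ d * (1 + ‖w‖ ^ d) := by gcongr; linarith
    calc ‖w‖ ^ n * ‖𝓕 g w‖ * (1 + ‖w‖) ^ d
        ≤ ‖w‖ ^ n * ‖𝓕 g w‖ * (2 ^ d * (1 + ‖w‖ ^ d)) := by gcongr
      _ = 2 ^ d * (‖w‖ ^ n * ‖𝓕 g w‖ + ‖w‖ ^ (n + d) * ‖𝓕 g w‖) := by ring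
      _ ≤ 2 ^ d * (D n + D (n + d)) := by gcongr <;> exact hdec _ _
  have hFc : Continuous (𝓕 g) := by
    have := VectorFourier.fourierIntegral_continuous (μ := (volume : Measure V))
      (L := innerₗ V) Real.continuous_fourierChar (by exact continuous_inner) (f := g)
      (hgc.integrable_of_hasCompactSupport hgs)
    exact this
  have hint : ∀ n : ℕ, Integrable (fun w : V => ‖w‖ ^ n * ‖𝓕 g w‖) := by
    intro n
    refine (hint0.const_mul (2 ^ d * (D n + D (n + d)))).mono' ?_ ?_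
    · exact (Continuous.aestronglyMeasurable (by fun_prop))
    · refine Eventually.of_forall fun w => ?_
      rw [Real.norm_of_nonneg (by positivity)]
      exact hbd n w
  have hFint : Integrable (𝓕 g) := by
    have := hint 0
    simp only [pow_zero, one_mul] at this
    exact (integrable_norm_iff hFc.aestronglyMeasurable).mp this
  have hinv : g = (𝓕 (𝓕 g)) ∘ (LinearIsometryEquiv.neg ℝ : V ≃ₗᵢ[ℝ] V) := by
    have h1 := hgc.fourierInv_fourier_eq (hgc.integrable_of_hasCompactSupport hgs) hFint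
    funext z
    rw [Function.comp_apply, LinearIsometryEquiv.coe_neg]
    conv_lhs => rw [← h1]
    rw [Real.fourierInv_eq_fourier_neg]
  have hsm : ContDiff ℝ ∞ (𝓕 (𝓕 g)) := by
    have := Real.contDiff_fourier (f := 𝓕 g) (N := ⊤) (fun n _ => hint n)
    exact this
  refine ⟨?_, fun n z => ?_⟩
  · rw [hinv]
    exact hsm.comp (LinearIsometryEquiv.neg ℝ : V ≃ₗᵢ[ℝ] V).contDiff
  · rw [hinv, LinearIsometryEquiv.norm_iteratedFDeriv_comp_right]
    rw [Real.iteratedFDeriv_fourier (N := ⊤) (fun n _ => hint n) hFc.aestronglyMeasurable le_top]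
    rw [Real.fourier_eq']
    have hn : ∀ v : V, ‖VectorFourier.fourierPowSMulRight (innerSL ℝ) (𝓕 g) v n‖ ≤
        (2 * π) ^ n * ((2 ^ d * (D n + D (n + d))) * (1 + ‖v‖) ^ (-(d : ℝ))) := by
      intro v
      refine (VectorFourier.norm_fourierPowSMulRight_le (innerSL ℝ) (𝓕 g) v n).trans ?_
      have h1 : (2 * π * ‖(innerSL ℝ : V →L[ℝ] V →L[ℝ] ℝ)‖) ≤ 2 * π := by
        have := norm_innerSL_le (𝕜 := ℝ) (E := V)
        nlinarith [Real.pi_pos]
      calc (2 * π * ‖(innerSL ℝ : V →L[ℝ] V →L[ℝ] ℝ)‖) ^ n * ‖v‖ ^ n * ‖𝓕 g v‖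
          ≤ (2 * π) ^ n * ‖v‖ ^ n * ‖𝓕 g v‖ := by gcongr
        _ = (2 * π) ^ n * (‖v‖ ^ n * ‖𝓕 g v‖) := by ring
        _ ≤ _ := mul_le_mul_of_nonneg_left (hbd n v) (by positivity)
    refine (norm_integral_le_integral_norm _).trans ?_
    have hI : ∫ w : V, (2 * π) ^ n * ((2 ^ d * (D n + D (n + d))) * (1 + ‖w‖) ^ (-(d : ℝ))) =
        (2 * π) ^ n * ((2 ^ d * (D n + D (n + d))) * I0) := by
      rw [integral_const_mul, integral_const_mul]
    refine le_trans ?_ (le_of_eq hI)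
    refine integral_mono_of_nonneg (Eventually.of_forall fun v => norm_nonneg _)
      ((hint0.const_mul _).const_mul _) (Eventually.of_forall fun v => ?_)
    simp only
    rw [norm_smul, Complex.norm_exp_ofReal_mul_I, one_mul]
    exact hn v

end Vale.Agent.P207.N3.H646
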