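import Vale.Agent.P207.N3.H646.Cap
import Vale.Agent.P207.N3.H824.Top

/-!
Line N3 of P207, row R19: the mass of the visual measure is at least the integral of its density
over the unit sphere.
-/

open MeasureTheory Measure Set Filter Topology Metric Asymptotics
open scoped ENNReal Pointwise

noncomputable section

namespace Vale.Agent.P207.N3.H646

open H76 (pk tl e0)

set_option linter.unusedSectionVars false

variable {Γ X B : Type} [Group Γ] [MetricSpace X] [ProperSpace X] [MulAction Γ X]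
  [IsIsometricSMul Γ X] [TopologicalSpace B] [CompactSpace B] [T2Space B] [MulAction Γ B]
  [ContinuousConstSMul Γ B] {L : Leaf Γ X B} [MeasurableSpace B] [BorelSpace B]

theorem area_D (A : Area L) {ξ η : B} (h : ξ ≠ η) : A.D ξ η = H824.D L ξ η := by
  obtain ⟨x, hx1, hx2, -⟩ := L.exists_frame ξ η h 0
  rw [← hx1, ← hx2, A.D_eq, H824.D_eq]

/-- continuity of `D (em x)` along the disc -/
theorem area_D_cont (A : Area L) (x : X) :
    Tendsto (fun u : E2 => A.D (L.em x) (L.e x u)) (𝓝 0) (𝓝 (A.D (L.em x) (L.ep x))) := by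
  have h3 : (closedBall (0 : E2) 3) ∈ 𝓝 (0 : E2) := closedBall_mem_nhds _ (by norm_num)
  have hc : ContinuousOn (fun u : E2 => L.e x u) (closedBall 0 3) := by
    have := L.e_cont
    exact this.comp (f := fun u : E2 => (x, u)) (by fun_prop) fun u hu => ⟨mem_univ _, hu⟩
  have h1 : Tendsto (fun u : E2 => L.e x u) (𝓝 0) (𝓝 (L.ep x)) := by
    have := (hc.continuousAt h3).tendsto
    rwa [L.e_zero] at this
  have h2 : Tendsto (fun u : E2 => (L.em x, L.e x u)) (𝓝 0) (𝓝[{p | p.1 ≠ p.2}] (L.em x, L.ep x)) := by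
    refine tendsto_nhdsWithin_iff.2 ⟨(tendsto_const_nhds.prodMk_nhds h1), ?_⟩
    filter_upwards [h3] with u hu
    exact (L.e_ne x u hu).symm
  have h4 := ((H824.D_cont L) (L.em x, L.ep x) (L.em_ne_ep x)).tendsto.comp h2
  rw [area_D A (L.em_ne_ep x)]
  refine h4.congr' ?_
  filter_upwards [h3] with u hu
  exact (area_D A (L.e_ne x u hu).symm).symm

/-- the area of a small ellipse is at least its Lebesgue measure times the density -/
theorem nu_image_ge (A : Area L) {x : X} (hlv : L.lv x = 0) (hlp : L.lp x = 0) {δ : ℝ} (hδ : 0 < δ) :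
    ∀ᶠ ρ : ℝ in 𝓝[>] 0, ∀ K : Set E2, IsCompact K → K ⊆ closedBall 0 ρ →
      ENNReal.ofReal (Real.exp (-δ) * A.s x 0) * volume K ≤ A.ν (L.e x '' K) := by
  have hs0 : 0 < A.s x 0 := A.s_pos x 0 (by simp)
  have hD0 : A.D (L.em x) (L.ep x) = 0 := by rw [A.D_eq, hlv, hlp, add_zero]
  have h1 : ∀ᶠ u in 𝓝 (0 : E2), -(δ / 2) < A.h * A.D (L.em x) (L.e x u) := by
    have := (area_D_cont A x).const_mul A.h
    rw [hD0, mul_zero] at this
    exact this.eventually (lt_mem_nhds (by linarith))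
  have h2 : ∀ᶠ u in 𝓝 (0 : E2), Real.exp (-(δ / 2)) * A.s x 0 < A.s x u := by
    have hc : ContinuousAt (A.s x) 0 :=
      ((A.s_smooth x).continuousOn).continuousAt (ball_mem_nhds _ (by norm_num))
    refine hc.tendsto.eventually (lt_mem_nhds ?_)
    have : Real.exp (-(δ / 2)) < 1 := by
      rw [← Real.exp_zero]
      exact Real.exp_lt_exp.2 (by linarith)
    nlinarith
  obtain ⟨ρ₀, hρ₀, hball⟩ := Metric.eventually_nhds_iff_ball.1 (h1.and h2)
  filter_upwards [nhdsWithin_le_nhds (eventually_lt_nhds hρ₀),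
    nhdsWithin_le_nhds (eventually_lt_nhds (show (0 : ℝ) < 3 by norm_num))] with ρ hρ hρ3 K hK hKρ
  have hK3 : K ⊆ ball (0 : E2) 3 := hKρ.trans (closedBall_subset_ball hρ3)
  have hKb : K ⊆ ball (0 : E2) ρ₀ := hKρ.trans (closedBall_subset_ball hρ)
  have hc : ContinuousOn (fun u : E2 => L.e x u) K := by
    have := L.e_cont
    exact this.comp (f := fun u : E2 => (x, u)) (by fun_prop) fun u hu =>
      ⟨mem_univ _, ball_subset_closedBall (hK3 hu)⟩
  have hm : MeasurableSet (L.e x '' K) := (hK.image_of_continuousOn hc).isClosed.measurableSet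
  have hch := A.ν_chart x K hK.isClosed.measurableSet hK3
  -- the left side
  have hl : ENNReal.ofReal (Real.exp (-(δ / 2)) * A.s x 0) * volume K ≤
      ∫⁻ u in K, ENNReal.ofReal (Real.exp (-A.h * L.lv x) * A.s x u) := by
    rw [← setLIntegral_const]
    refine setLIntegral_mono' hK.isClosed.measurableSet fun u hu => ?_
    refine ENNReal.ofReal_le_ofReal ?_
    rw [hlv, mul_zero, Real.exp_zero, one_mul]
    exact ((hball u (hKb hu)).2).le
  have hr : ∫⁻ η in L.e x '' K, ENNReal.ofReal (Real.exp (-A.h * A.D (L.em x) η)) ∂A.ν ≤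
      ENNReal.ofReal (Real.exp (δ / 2)) * A.ν (L.e x '' K) := by
    rw [← setLIntegral_const]
    refine setLIntegral_mono' hm ?_
    rintro η ⟨u, hu, rfl⟩
    refine ENNReal.ofReal_le_ofReal (Real.exp_le_exp.2 ?_)
    have := (hball u (hKb hu)).1
    linarith
  have h3 := (hl.trans hch.le).trans hr
  have he : ENNReal.ofReal (Real.exp (-δ) * A.s x 0) =
      ENNReal.ofReal (Real.exp (-(δ / 2))) * ENNReal.ofReal (Real.exp (-(δ / 2)) * A.s x 0) := by
    rw [← ENNReal.ofReal_mul (Real.exp_pos _).le, ← mul_assoc, ← Real.exp_add]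
    congr 3
    ring
  calc ENNReal.ofReal (Real.exp (-δ) * A.s x 0) * volume K
      = ENNReal.ofReal (Real.exp (-(δ / 2))) *
          (ENNReal.ofReal (Real.exp (-(δ / 2)) * A.s x 0) * volume K) := by
        rw [he, mul_assoc]
    _ ≤ ENNReal.ofReal (Real.exp (-(δ / 2))) *
          (ENNReal.ofReal (Real.exp (δ / 2)) * A.ν (L.e x '' K)) := by gcongr
    _ = A.ν (L.e x '' K) := by
        rw [← mul_assoc, ← ENNReal.ofReal_mul (Real.exp_pos _).le, ← Real.exp_add]
        simp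

theorem volume_ell {T : E2 →L[ℝ] E2} (hT : T.det ≠ 0) {ρ : ℝ} (hρ : 0 ≤ ρ) :
    volume (T ⁻¹' closedBall 0 ρ) = ENNReal.ofReal (Real.pi * ρ ^ 2 / |T.det|) := by
  rw [Measure.addHaar_preimage_continuousLinearMap _ hT, EuclideanSpace.volume_closedBall_fin_two,
    ← ENNReal.ofReal_pow hρ, ← ENNReal.ofReal_mul (by positivity),
    ← ENNReal.ofReal_mul (abs_nonneg _)]
  congr 1
  rw [abs_inv]
  ring

/-- The local form of the lower bound. -/
theorem local_ge (A : Area L) {ω : B → E3} {x : X} {R : O3} {T : E2 →L[ℝ] E2} {D : E2 →L[ℝ] E3}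
    (hlv : L.lv x = 0) (hlp : L.lp x = 0) (hT : T.det ≠ 0) (h0 : ω (L.ep x) = R e0)
    (hD : ∀ u, D u = pk 0 (T u)) (hω : HasFDerivAt (fun u => R.symm (ω (L.e x u))) D 0)
    {a : ℝ} (haT : a * |T.det| < A.s x 0) :
    ∀ᶠ r : ℝ in 𝓝[>] 0, ENNReal.ofReal (a * (Real.pi * r ^ 2)) ≤
      A.ν (ω ⁻¹' closedBall (R e0) r) := by
  have hTp : 0 < |T.det| := abs_pos.2 hT
  -- choose the small parameter
  obtain ⟨δ, hδ0, hδ1, hδ⟩ : ∃ δ : ℝ, 0 < δ ∧ δ < 1 ∧
      a * |T.det| ≤ Real.exp (-δ) * (1 - δ) ^ 2 * A.s x 0 := by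
    have h1 : Tendsto (fun δ : ℝ => Real.exp (-δ) * (1 - δ) ^ 2 * A.s x 0) (𝓝 0)
        (𝓝 (A.s x 0)) := by
      have : Continuous fun δ : ℝ => Real.exp (-δ) * (1 - δ) ^ 2 * A.s x 0 := by fun_prop
      have h := this.tendsto 0
      simpa using h
    have h2 : ∀ᶠ δ : ℝ in 𝓝[>] 0, a * |T.det| < Real.exp (-δ) * (1 - δ) ^ 2 * A.s x 0 :=
      nhdsWithin_le_nhds (h1.eventually (lt_mem_nhds haT))
    have h3 : ∀ᶠ δ : ℝ in 𝓝[>] 0, δ < 1 := nhdsWithin_le_nhds (eventually_lt_nhds one_pos)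
    have h4 : ∀ᶠ δ : ℝ in 𝓝[>] 0, 0 < δ := self_mem_nhdsWithin
    obtain ⟨δ, h5, h6, h7⟩ := (h2.and (h3.and h4)).exists
    exact ⟨δ, h7, h6, h5.le⟩
  -- the inverse of `T`
  obtain ⟨c, hc0, hc⟩ : ∃ c : ℝ, 0 < c ∧ ∀ u, ‖u‖ ≤ c * ‖T u‖ := by
    set Te := T.toContinuousLinearEquivOfDetNeZero hT with hTe
    refine ⟨‖(Te.symm : E2 →L[ℝ] E2)‖ + 1, by positivity, fun u => ?_⟩
    have h1 : u = (Te.symm : E2 →L[ℝ] E2) (T u) := by
      have : Te u = T u := by simp [hTe]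
      rw [← this]
      simp
    calc ‖u‖ = ‖(Te.symm : E2 →L[ℝ] E2) (T u)‖ := by rw [← h1]
      _ ≤ ‖(Te.symm : E2 →L[ℝ] E2)‖ * ‖T u‖ := ContinuousLinearMap.le_opNorm _ _
      _ ≤ (‖(Te.symm : E2 →L[ℝ] E2)‖ + 1) * ‖T u‖ := by gcongr; linarith
  -- the little o
  have hlo : ∀ᶠ u in 𝓝 (0 : E2), ‖R.symm (ω (L.e x u)) - e0 - D u‖ ≤ (δ / c) * ‖u‖ := by
    have h := (hasFDerivAt_iff_isLittleO.1 hω).def (c := δ / c) (by positivity)
    filter_upwards [h] with u hu
    rw [L.e_zero, h0, LinearIsometryEquiv.symm_apply_apply, sub_zero] at hu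
    exact hu
  obtain ⟨ρ₁, hρ₁, hball⟩ := Metric.eventually_nhds_iff_ball.1 hlo
  have hfil : Tendsto (fun r : ℝ => c * r) (𝓝[>] 0) (𝓝[>] 0) := by
    refine tendsto_nhdsWithin_iff.2 ⟨?_, ?_⟩
    · have : Tendsto (fun r : ℝ => c * r) (𝓝 0) (𝓝 (c * 0)) :=
        (continuous_const.mul continuous_id).tendsto 0
      rw [mul_zero] at this
      exact this.mono_left nhdsWithin_le_nhds
    · filter_upwards [self_mem_nhdsWithin] with r hr
      exact mul_pos hc0 hr
  filter_upwards [hfil.eventually (nu_image_ge A hlv hlp hδ0),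
    hfil.eventually (nhdsWithin_le_nhds (eventually_lt_nhds hρ₁)), self_mem_nhdsWithin]
    with r h1 h2 hr
  have hr : 0 < r := hr
  set K : Set E2 := T ⁻¹' closedBall 0 ((1 - δ) * r) with hK
  have h1d : 0 < 1 - δ := by linarith
  have hKn : ∀ u ∈ K, ‖u‖ ≤ c * ((1 - δ) * r) := fun u hu => by
    have h3 : ‖T u‖ ≤ (1 - δ) * r := mem_closedBall_zero_iff.1 hu
    exact (hc u).trans (by gcongr)
  have hKsub : K ⊆ closedBall 0 (c * r) := fun u hu => by
    rw [mem_closedBall_zero_iff]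
    refine (hKn u hu).trans ?_
    gcongr
    nlinarith
  have hKc : IsCompact K :=
    (isCompact_closedBall (0 : E2) (c * r)).of_isClosed_subset
      (isClosed_closedBall.preimage T.continuous) hKsub
  have h3 := h1 K hKc hKsub
  have hKω : L.e x '' K ⊆ ω ⁻¹' closedBall (R e0) r := by
    rintro _ ⟨u, hu, rfl⟩
    have hub : u ∈ ball (0 : E2) ρ₁ := by
      rw [mem_ball_zero_iff]
      exact (mem_closedBall_zero_iff.1 (hKsub hu)).trans_lt h2
    have h4 := hball u hub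
    have h5 : ‖T u‖ ≤ (1 - δ) * r := mem_closedBall_zero_iff.1 hu
    rw [mem_preimage, mem_closedBall_iff_norm]
    have h6 : ‖ω (L.e x u) - R e0‖ = ‖R.symm (ω (L.e x u)) - e0‖ := by
      rw [← LinearIsometryEquiv.norm_map R.symm (ω (L.e x u) - R e0), map_sub,
        LinearIsometryEquiv.symm_apply_apply]
    have h7 : ‖D u‖ = ‖T u‖ := by rw [hD, H76.norm_pk_zero_left]
    calc ‖ω (L.e x u) - R e0‖ = ‖(R.symm (ω (L.e x u)) - e0 - D u) + D u‖ := by
          rw [h6]; congr 1; abel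
      _ ≤ ‖R.symm (ω (L.e x u)) - e0 - D u‖ + ‖D u‖ := norm_add_le _ _
      _ ≤ (δ / c) * (c * ((1 - δ) * r)) + (1 - δ) * r := by
          rw [h7]
          have := hKn u hu
          gcongr
          exact h4.trans (by gcongr)
      _ = (1 + δ) * (1 - δ) * r := by field_simp; ring
      _ ≤ r := by nlinarith [mul_pos hδ0 hr, mul_pos (mul_pos hδ0 hδ0) hr]
  calc ENNReal.ofReal (a * (Real.pi * r ^ 2))
      ≤ ENNReal.ofReal (Real.exp (-δ) * A.s x 0 * (Real.pi * ((1 - δ) * r) ^ 2 / |T.det|)) := by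
        refine ENNReal.ofReal_le_ofReal ?_
        rw [mul_div_assoc', le_div_iff₀ hTp]
        have h8 : 0 ≤ Real.pi * r ^ 2 := by positivity
        nlinarith [mul_le_mul_of_nonneg_right hδ h8]
    _ = ENNReal.ofReal (Real.exp (-δ) * A.s x 0) * volume K := by
        rw [hK, volume_ell hT (by positivity), ← ENNReal.ofReal_mul]
        have := (A.s_pos x 0 (by simp)).le
        positivity
    _ ≤ A.ν (L.e x '' K) := h3
    _ ≤ A.ν (ω ⁻¹' closedBall (R e0) r) := measure_mono hKω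

/-- **(R19) The mass inequality**, as an integral over the sphere. -/
theorem mass_sig (A : Area L) {ω : B → E3} (hωm : Measurable ω) {G : E3 → ℝ}
    (h : ∀ v : E3, ‖v‖ = 1 → ∃ (x : X) (R : O3) (T : E2 →L[ℝ] E2) (D : E2 →L[ℝ] E3), R e0 = v ∧
      L.lv x = 0 ∧ L.lp x = 0 ∧ T.det ≠ 0 ∧ ω (L.ep x) = v ∧ (∀ u, D u = pk 0 (T u)) ∧
      HasFDerivAt (fun u => R.symm (ω (L.e x u))) D 0 ∧ G v * |T.det| ≤ A.s x 0) :
    ∫⁻ v, ENNReal.ofReal (G v) ∂sig ≤ A.ν univ := by
  have := A.ν_finite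
  have hfin : IsFiniteMeasure (A.ν.map ω) := Measure.isFiniteMeasure_map _ _
  have h1 := lintegral_sig_le (N := A.ν.map ω) (G := fun v => ENNReal.ofReal (G v)) ?_
  · rwa [Measure.map_apply hωm MeasurableSet.univ, preimage_univ] at h1
  · intro v hv a ha
    obtain ⟨x, R, T, D, rfl, hlv, hlp, hT, h0, hD, hω, hs⟩ := h v hv
    have hat : a ≠ ⊤ := (ha.trans_le le_top).ne
    have ha' : a.toReal < G (R e0) := by
      have h2 : a.toReal < (ENNReal.ofReal (G (R e0))).toReal :=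
        (ENNReal.toReal_lt_toReal hat ENNReal.ofReal_ne_top).2 ha
      rcases le_or_gt (G (R e0)) 0 with h3 | h3
      · rw [ENNReal.ofReal_of_nonpos h3] at ha
        exact absurd ha not_lt_bot
      · rwa [ENNReal.toReal_ofReal h3.le] at h2
    have h3 := local_ge A hlv hlp hT h0 hD hω (a := a.toReal)
      (lt_of_lt_of_le (mul_lt_mul_of_pos_right ha' (abs_pos.2 hT)) hs)
    filter_upwards [h3] with r hr
    rw [Measure.map_apply hωm measurableSet_closedBall]
    refine le_trans (le_of_eq ?_) hr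
    rw [ENNReal.ofReal_mul ENNReal.toReal_nonneg, ENNReal.ofReal_toReal hat]

/-- **(R19) The mass inequality**, as an average over the unit ball. -/
theorem mass_ball (A : Area L) {ω : B → E3} (hωm : Measurable ω) {G : E3 → ℝ}
    (hG : Measurable G) (hG0 : ∀ v, ‖v‖ = 1 → 0 ≤ G v)
    (h : ∀ v : E3, ‖v‖ = 1 → ∃ (x : X) (R : O3) (T : E2 →L[ℝ] E2) (D : E2 →L[ℝ] E3), R e0 = v ∧
      L.lv x = 0 ∧ L.lp x = 0 ∧ T.det ≠ 0 ∧ ω (L.ep x) = v ∧ (∀ u, D u = pk 0 (T u)) ∧
      HasFDerivAt (fun u => R.symm (ω (L.e x u))) D 0 ∧ G v * |T.det| ≤ A.s x 0) :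
    ENNReal.ofReal (4 * Real.pi * ((∫ z in ball (0 : E3) 1, G (‖z‖⁻¹ • z)) /
      volume.real (ball (0 : E3) 1))) ≤ A.ν univ := by
  have h1 := mass_sig A hωm h
  rw [← lintegral_ball (G := fun v => ENNReal.ofReal (G v)) hG.ennreal_ofReal] at h1
  refine le_trans ?_ h1
  have hvol : volume.real (ball (0 : E3) 1) = Real.pi * 4 / 3 := by
    rw [Measure.real, EuclideanSpace.volume_ball_fin_three]
    simp [ENNReal.toReal_ofReal (show (0 : ℝ) ≤ Real.pi * 4 / 3 by positivity)]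
  have hpi := Real.pi_pos
  have h2 : 4 * Real.pi * ((∫ z in ball (0 : E3) 1, G (‖z‖⁻¹ • z)) /
      volume.real (ball (0 : E3) 1)) = 3 * ∫ z in ball (0 : E3) 1, G (‖z‖⁻¹ • z) := by
    rw [hvol]
    field_simp
  rw [h2, ENNReal.ofReal_mul (by norm_num)]
  have h3 : ENNReal.ofReal (∫ z in ball (0 : E3) 1, G (‖z‖⁻¹ • z)) ≤
      ∫⁻ z in ball (0 : E3) 1, ENNReal.ofReal (G (‖z‖⁻¹ • z)) := by
    rw [integral_eq_lintegral_of_nonneg_ae]
    · exact ENNReal.ofReal_toReal_le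
    · have h0 : ∀ᵐ z ∂((volume : Measure E3).restrict (ball 0 1)), z ≠ 0 :=
        ae_restrict_of_ae (compl_mem_ae_iff.2 (measure_singleton _))
      filter_upwards [h0] with z hz
      refine hG0 _ ?_
      rw [norm_smul, norm_inv, norm_norm, inv_mul_cancel₀ (norm_ne_zero_iff.2 hz)]
    · exact (hG.comp (measurable_norm.inv.smul measurable_id)).aestronglyMeasurable
  have h4 : ENNReal.ofReal 3 = 3 := by simp
  rw [h4]
  gcongr

theorem det_smul_two (r : ℝ) (S : E2 →L[ℝ] E2) : (r • S).det = r ^ 2 * S.det := by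
  have h : (r • S).det = LinearMap.det (r • (S : E2 →ₗ[ℝ] E2)) := rfl
  rw [h, LinearMap.det_smul]
  simp [ContinuousLinearMap.det]

end Vale.Agent.P207.N3.H646
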