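import Vale.Agent.P207.N3.H646.Mass
import Vale.Agent.P207.N3.H546.DirIn

/-!
Line N3 of P207, row R19: the mass inequality from 546's structure `DirIn`.
-/

open MeasureTheory Measure Set Filter Topology Metric
open scoped ENNReal

noncomputable section

namespace Vale.Agent.P207.N3.H646

open H76 (pk tl e0)

variable {Γ X B : Type} [Group Γ] [MetricSpace X] [ProperSpace X] [MulAction Γ X]
  [IsIsometricSMul Γ X] [TopologicalSpace B] [CompactSpace B] [T2Space B] [MulAction Γ B]
  [ContinuousConstSMul Γ B] {L : Leaf Γ X B} [MeasurableSpace B] [BorelSpace B]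

/-- **(R19) The mass inequality.** -/
theorem mass {A : Area L} {G : E3 → ℝ} (I : H546.DirIn L A G) (hG : Measurable G)
    (hG0 : ∀ v, ‖v‖ = 1 → 0 ≤ G v) :
    ENNReal.ofReal (4 * Real.pi * ((∫ z in ball (0 : E3) 1, G (‖z‖⁻¹ • z)) /
      volume.real (ball (0 : E3) 1))) ≤ A.ν univ := by
  refine mass_ball A I.dr_cont.measurable hG hG0 fun v hv => ?_
  obtain ⟨x, R, S, h1, h2, h3, h4, h5, h6, h7⟩ := I.dir v hv
  have hr := I.r₀_pos
  refine ⟨x, R, I.r₀ • S, H546.pk0 ∘L (I.r₀ • S), h1, h3, h4, ?_, h2, fun u => rfl, h6, ?_⟩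
  · rw [det_smul_two]
    positivity
  · rw [det_smul_two, h7, abs_mul, abs_of_pos (by positivity : 0 < I.r₀ ^ 2)]
    refine le_of_eq ?_
    ring

/-- **(R19) The mass inequality**, for a homogeneous density. -/
theorem mass_hom {A : Area L} {G : E3 → ℝ} (I : H546.DirIn L A G) (hG : Measurable G)
    (hG0 : ∀ v, ‖v‖ = 1 → 0 ≤ G v) (hom : ∀ (c : ℝ) (v : E3), 0 < c → v ≠ 0 → G (c • v) = G v) :
    ENNReal.ofReal (4 * Real.pi * ((∫ z in ball (0 : E3) 1, G z) /
      volume.real (ball (0 : E3) 1))) ≤ A.ν univ := by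
  have h := mass I hG hG0
  have h0 : ∀ᵐ z ∂((volume : Measure E3).restrict (ball 0 1)), z ≠ 0 :=
    ae_restrict_of_ae (compl_mem_ae_iff.2 (measure_singleton _))
  have h1 : ∫ z in ball (0 : E3) 1, G (‖z‖⁻¹ • z) = ∫ z in ball (0 : E3) 1, G z := by
    refine integral_congr_ae ?_
    filter_upwards [h0] with z hz
    exact hom _ _ (inv_pos.2 (norm_pos_iff.2 hz)) hz
  rwa [h1] at h

/-- The same for a density given by a continuous function of the unit vector. -/
theorem mass_of_continuousOn {A : Area L} {G : E3 → ℝ} (I : H546.DirIn L A G)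
    (hG : ContinuousOn G {0}ᶜ) (hG0 : ∀ v, ‖v‖ = 1 → 0 ≤ G v)
    (hom : ∀ (c : ℝ) (v : E3), 0 < c → v ≠ 0 → G (c • v) = G v) :
    ENNReal.ofReal (4 * Real.pi * ((∫ z in ball (0 : E3) 1, G z) /
      volume.real (ball (0 : E3) 1))) ≤ A.ν univ := by
  refine mass_hom I ?_ hG0 hom
  have h1 : Measurable fun z : ({0}ᶜ : Set E3) => G z :=
    (continuousOn_iff_continuous_domRestrict.1 hG).measurable
  have h2 : Measurable fun z : (({0}ᶜ : Set E3)ᶜ : Set E3) => G z := by
    have : ∀ z : (({0}ᶜ : Set E3)ᶜ : Set E3), G z = G 0 := fun z => by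
      have : (z : E3) = 0 := by simpa using z.2
      rw [this]
    simp_rw [this]
    exact measurable_const
  exact measurable_of_restrict_of_restrict_compl (measurableSet_singleton 0).compl h1 h2

end Vale.Agent.P207.N3.H646
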